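import Crest.Agent.R172.P.Arr

/-! Row 172, block L2: from hives to patterns. -/

set_option autoImplicit false

namespace Crest.Agent.R172.P

open Crest.AlgebraR.SpinSaturation Finset

variable {m : ℕ} {a b c : Fin (m + 1) → ℤ} {P : Pat}

theorem Agree.hive {h h' : Arr} {lam mu nu : ℕ → ℚ} (hA : Agree m h h') (H : IsHive m lam mu nu h) :
    IsHive m lam mu nu h' := by
  have ex : ∀ k t, k ≤ t → t ≤ m → h'.x k t = h.x k t := fun k t h1 h2 => (hA.x k t h1 h2).symm
  have ey : ∀ k t, 1 ≤ k → k ≤ t → t ≤ m → h'.y k t = h.y k t := fun k t h0 h1 h2 => by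
    obtain ⟨k, rfl⟩ := Nat.exists_eq_add_of_le' h0
    exact (hA.y k t h1 h2).symm
  have es : ∀ e k, k ≤ m + 1 → h'.s e k = h.s e k := fun e k h1 => (hA.s e k h1).symm
  obtain ⟨B, C⟩ := H
  refine ⟨⟨?_, fun t h1 => ?_, fun t h1 => ?_, fun t h1 => ?_, fun t h1 => ?_, fun e => ?_, fun e => ?_, fun e => ?_⟩,
    ⟨fun k t h1 h2 => ?_, fun k t h1 h2 => ?_, fun k e h1 => ?_, fun k t h1 h2 => ?_, fun k t h1 h2 => ?_,
      fun k t e h1 h2 => ?_, fun k t e h1 h2 => ?_, fun k e h1 => ?_, fun k t h1 h2 => ?_, fun k t h1 h2 => ?_,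
      fun k t h1 h2 => ?_, fun k t h1 h2 => ?_⟩⟩ <;>
    simp (disch := omega) only [Arr.p1, Arr.p2, Arr.pf, ex, ey, es]
  exacts [B.x00, B.x0 t h1, B.yd t h1, B.xd t h1, B.top t h1, B.s0 e, B.sm e, B.sn e, C.P1 k t h1 h2, C.P2 k t h1 h2,
    C.Pf k e h1, C.E1 k t h1 h2, C.E2 k t h1 h2, C.E1f k t e h1 h2, C.E2f k t e h1 h2, C.Bf k e h1, C.A k t h1 h2,
    C.D k t h1 h2, C.C k t h1 h2, C.B k t h1 h2]

theorem bwda_floor {q : ℚ} (h : IsInt q) : ((⌊q⌋ : ℤ) : ℚ) = q := by
  obtain ⟨z, rfl⟩ := h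
  rw [Int.floor_intCast]

theorem bwda_xy (hb : IsDominantIntegral (m + 1) b) {nu : ℕ → ℚ} {h : Arr}
    (H : IsBdry m (wt a) (wt b) nu h) (L : IsLat m h) (k t : ℕ) (hk : k + 1 ≤ t) (ht : t ≤ m) :
    IsInt (h.x (k + 1) t - h.y (k + 1) t - (dl b : ℚ) / 2) := by
  induction t, hk using Nat.le_induction with
  | base => exact ⟨cc b k, by rw [H.xd k ht, wt_cc hb k (by omega)]; ring⟩
  | succ t hk ih =>
    obtain ⟨z, hz⟩ := ih (by omega)
    obtain ⟨w, hw⟩ := L.P2 k t hk ht
    refine ⟨z - w, ?_⟩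
    simp only [Arr.p2] at hw
    push_cast
    linarith

theorem bwda_yx (hb : IsDominantIntegral (m + 1) b) {nu : ℕ → ℚ} {h : Arr}
    (H : IsBdry m (wt a) (wt b) nu h) (L : IsLat m h) (k t : ℕ) (hk : k + 1 ≤ t) (ht : t ≤ m) :
    IsInt (h.y (k + 1) t - h.x k t - (dl b : ℚ) / 2) := by
  induction ht using Nat.decreasingInduction with
  | self =>
    obtain ⟨z, hz⟩ := bwda_xy hb H L k m hk le_rfl
    obtain ⟨u, hu⟩ := L.Pf k true hk
    obtain ⟨v, hv⟩ := L.Pf k false hk
    have h1 := H.top k (by omega)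
    have h2 := H.top (k + 1) hk
    refine ⟨z - u - v, ?_⟩
    simp only [Arr.pf, Bool.not_true, Bool.not_false] at hu hv
    push_cast
    linarith
  | of_succ t ht ih =>
    obtain ⟨z, hz⟩ := ih (by omega)
    obtain ⟨w, hw⟩ := L.P1 k t hk ht
    refine ⟨z - w, ?_⟩
    simp only [Arr.p1] at hw
    push_cast
    linarith

theorem bwda_s (hb : IsDominantIntegral (m + 1) b) {nu : ℕ → ℚ} {h : Arr}
    (H : IsBdry m (wt a) (wt b) nu h) (L : IsLat m h) (e : Bool) (k : ℕ) (hk : k ≤ m) :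
    IsInt (h.s e (k + 1) - h.s e k - (dl b : ℚ) / 2) := by
  rcases hk.lt_or_eq with hk' | rfl
  · obtain ⟨z, hz⟩ := bwda_yx hb H L k m hk' le_rfl
    obtain ⟨u, hu⟩ := L.Pf k e hk'
    have h1 := H.top k hk
    refine ⟨z + u, ?_⟩
    cases e <;> simp only [Arr.pf, Bool.not_true, Bool.not_false] at hu <;> push_cast <;> linarith
  · have h1 := H.sm e
    have h2 := H.sn e
    have h3 := wt_cc hb k le_rfl
    cases e
    · refine ⟨-cc b k - dl b, ?_⟩
      simp only [sg, Bool.false_eq_true, if_false] at h1 h2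
      push_cast
      linarith
    · refine ⟨cc b k, ?_⟩
      simp only [sg, if_true] at h1 h2
      linarith

/-- the pattern of a lattice hive -/
def bwda_pat (m : ℕ) (δ : ℤ) (h : Arr) : Pat where
  Z := fun t j => if t ≤ m ∧ j < 2 * t then
    (if j % 2 = 0 then ⌊h.y (j / 2 + 1) t - h.x (j / 2) t - (δ : ℚ) / 2⌋
      else ⌊h.x (j / 2 + 1) t - h.y (j / 2 + 1) t - (δ : ℚ) / 2⌋) else 0
  s := fun e k => if k ≤ m then ⌊h.s e (k + 1) - h.s e k - (δ : ℚ) / 2⌋ else 0

/-- The differences `x (k+1) t - y (k+1) t - δ/2` are integers (induction on `t` from `xd`, `wt_cc`, `L.P2`); so are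
`y (k+1) m - x k m - δ/2` (`top`, the two `Pf`), `y (k+1) t - x k t - δ/2` (downward induction, `L.P1`) and
`s e (k+1) - s e k - δ/2` (`Pf`, `top`; for `k = m` use `sm`, `sn`).  Choose these integers (0 outside the triangle); `Agree` by
induction on `k` (`x0`, `s0`, `y_sub_x`, `x_sub_y`, `s_succ`). -/
theorem exists_pat (hm : 1 ≤ m) (hb : IsDominantIntegral (m + 1) b) {nu : ℕ → ℚ} {h : Arr}
    (H : IsBdry m (wt a) (wt b) nu h) (L : IsLat m h) : ∃ P, Junk m P ∧ Agree m h (toArr a (dl b) P) := by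
  have hZ0 : ∀ k t, k + 1 ≤ t → t ≤ m →
      ((bwda_pat m (dl b) h).Z t (2 * k) : ℚ) = h.y (k + 1) t - h.x k t - (dl b : ℚ) / 2 := by
    intro k t hk ht
    have e1 : 2 * k / 2 = k := by omega
    simp only [bwda_pat]
    rw [if_pos ⟨ht, by omega⟩, if_pos (by omega), e1]
    exact bwda_floor (bwda_yx hb H L k t hk ht)
  have hZ1 : ∀ k t, k + 1 ≤ t → t ≤ m →
      ((bwda_pat m (dl b) h).Z t (2 * k + 1) : ℚ) = h.x (k + 1) t - h.y (k + 1) t - (dl b : ℚ) / 2 := by
    intro k t hk ht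
    have e1 : (2 * k + 1) / 2 = k := by omega
    simp only [bwda_pat]
    rw [if_pos ⟨ht, by omega⟩, if_neg (by omega), e1]
    exact bwda_floor (bwda_xy hb H L k t hk ht)
  have hS : ∀ e k, k ≤ m → ((bwda_pat m (dl b) h).s e k : ℚ) = h.s e (k + 1) - h.s e k - (dl b : ℚ) / 2 := by
    intro e k hk
    simp only [bwda_pat]
    rw [if_pos hk]
    exact bwda_floor (bwda_s hb H L e k hk)
  have hx0 : ∀ t, t ≤ m → h.x 0 t = Lam a t := by
    intro t ht
    induction t with
    | zero => rw [H.x00]; simp [Lam]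
    | succ t ih => rw [H.x0 t ht, ih (by omega), Lam_succ]
  have hx : ∀ k t, k ≤ t → t ≤ m → h.x k t = (toArr a (dl b) (bwda_pat m (dl b) h)).x k t := by
    intro k t hk ht
    induction k with
    | zero => rw [hx0 t ht]; simp [toArr]
    | succ k ih => rw [x_sub_y, y_sub_x, ← ih (by omega), hZ0 k t hk ht, hZ1 k t hk ht]; ring
  refine ⟨bwda_pat m (dl b) h, ⟨fun t j hj => ?_, fun e k hk => ?_⟩, hx, fun k t hk ht => ?_, fun e k hk => ?_⟩
  · simp only [bwda_pat]
    rw [if_neg (by omega)]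
  · simp only [bwda_pat]
    rw [if_neg (by omega)]
  · rw [y_sub_x, ← hx k t (by omega) ht, hZ0 k t hk ht]; ring
  · induction k with
    | zero => rw [H.s0 e, hx0 m le_rfl]; simp [toArr]
    | succ k ih => rw [s_succ, ← ih (by omega), hS e k (by omega)]; ring

/-- converse of `conc_toArr` / `bdry_toArr` (`sum_of_top`; `top` from `sm`, `sn`, `s_succ`) -/
theorem isPat_of_hive (hm : 1 ≤ m) (hb : IsDominantIntegral (m + 1) b) (hJ : Junk m P) {nu : ℕ → ℚ}
    (H : IsHive m (wt a) (wt b) nu (toArr a (dl b) P)) : IsPat m (cc b) (dl b) P := by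
  obtain ⟨B, C⟩ := H
  have hs : Sum m P := sum_of_top B.top
  have yx := @y_sub_x m a (dl b) P
  have xy := @x_sub_y m a (dl b) P
  have ss := @s_succ m a (dl b) P
  have f1 : ∀ e k, k < m → P.Z m (2 * k) ≤ P.s e k := fun e k hk => by
    have h1 := C.Pf k e hk
    have h2 := B.top k hk.le
    have h3 := yx k m
    have h4 := ss e k
    rw [Arr.pf] at h1
    rw [← @Int.cast_le ℚ]
    cases e <;> simp only [Bool.not_false, Bool.not_true] at h1 <;> linarith
  have f2 : ∀ e k, k < m → P.s (!e) (k + 1) ≤ P.s e k := fun e k hk => by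
    have h1 := C.Bf k e hk
    have h2 := ss (!e) (k + 1)
    have h3 := ss e k
    rw [← @Int.cast_le ℚ]
    cases e <;> simp only [Bool.not_false, Bool.not_true] at h1 h2 ⊢ <;> linarith
  refine ⟨hJ, hs, fun t ht => ⟨fun k hk => ?_, fun k hk => ?_, fun k hk => ?_, fun k hk => ?_⟩, fun t ht j hj => ?_,
    fun e => ⟨fun k hk => ?_, fun k hk => ?_, fun k hk => ?_, fun k hk => ?_⟩, fun t ht => ?_, fun e => ?_⟩
  · have h1 := C.P1 k t hk ht
    rw [Arr.p1] at h1
    rw [← @Int.cast_le ℚ]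
    linarith [yx k t, yx k (t + 1)]
  · have h1 := C.P2 k t hk ht
    rw [Arr.p2] at h1
    rw [← @Int.cast_le ℚ]
    linarith [xy k t, xy k (t + 1)]
  · have h1 := C.C k t hk ht
    have h2 := yx (k + 1) (t + 1)
    rw [mul_add, mul_one] at h2
    rw [← @Int.cast_le ℚ]
    push_cast
    linarith [yx k t, xy k t, xy k (t + 1)]
  · have h1 := C.B k t hk ht
    have h2 := yx (k + 1) (t + 1)
    have h3 := yx (k + 1) t
    have h4 := xy (k + 1) t
    rw [mul_add, mul_one] at h2 h3 h4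
    rw [← @Int.cast_le ℚ]
    push_cast
    linarith [xy k (t + 1)]
  · obtain ⟨t, rfl⟩ : ∃ t', t = t' + 1 := ⟨t - 1, by omega⟩
    rw [← @Int.cast_le ℚ]
    obtain ⟨k, rfl | rfl⟩ := Nat.even_or_odd' j
    · have h2 := yx (k + 1) (t + 1)
      rw [mul_add, mul_one] at h2
      linarith [C.D k t (by omega) ht, yx k (t + 1)]
    · have h2 := xy (k + 1) (t + 1)
      rw [show 2 * (k + 1) + 1 = 2 * k + 1 + 2 by ring] at h2
      linarith [C.A k t (by omega) ht, xy k (t + 1)]
  · rw [Pat.S, show 2 * k / 2 = k by omega]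
    exact f1 e k hk
  · have h1 := hs k hk
    have h2 := f1 (!e) k hk
    rw [Pat.S, show (2 * k + 1) / 2 = k by omega]
    cases e <;> simp only [Bool.not_false, Bool.not_true] at h2 <;> omega
  · have h1 := hs k hk
    have h2 := f2 (!e) k hk
    simp only [Pat.S]
    rw [show (2 * k + 1) / 2 = k by omega, show (2 * k + 2) / 2 = k + 1 by omega]
    cases e <;> simp only [Bool.not_false, Bool.not_true] at h2 <;> omega
  · have h1 := hs (k + 1) hk
    have h2 := f2 e k (by omega)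
    simp only [Pat.S]
    rw [show (2 * k + 1) / 2 = k by omega, show (2 * k + 2) / 2 = k + 1 by omega]
    rw [show 2 * (k + 1) + 1 = 2 * k + 3 by ring, show 2 * (k + 1) = 2 * k + 2 by ring] at h1
    cases e <;> simp only [Bool.not_false, Bool.not_true] at h2 <;> omega
  · rw [← @Int.cast_inj ℚ]
    linarith [B.xd t ht, xy t (t + 1), wt_cc hb t ht.le]
  · have h1 := wt_cc hb m le_rfl
    have h2 : cc b m = 0 := by simp [cc, dl, Fin.last]
    have h3 := B.sm e
    have h4 := B.sn e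
    have h5 := ss e m
    rw [h2] at h1
    rw [← @Int.cast_inj ℚ]
    cases e <;> simp only [sg, Bool.false_eq_true, if_false, if_true] at h3 h4 ⊢ <;> push_cast at h1 ⊢ <;> linarith

theorem Mi_of_hive {δ : ℤ} (hm : 1 ≤ m) (hs : Sum m P) (H : IsConc m (toArr a δ P)) (i : Fin (m + 1)) (l : ℕ)
    (hl : l ≤ 2 * rw i) : 0 ≤ 2 * Mi P i l + pr m i a := by
  have h0 := pr_eq (a := a) hm i
  have hr : rw i + 1 ≤ m := by unfold rw; omega
  suffices h : (0 : ℚ) ≤ 2 * (Mi P i l : ℚ) + (pr m i a : ℚ) by exact_mod_cast h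
  rw [h0, Mi, Lc, Zc, Rc]
  split_ifs with h
  · have h1 : sn i = true := by
      unfold rw at h
      unfold sn
      exact decide_eq_true (by omega)
    rw [h1, show sg true = 1 from rfl]
    obtain ⟨k, rfl | rfl⟩ := Nat.even_or_odd' l
    · linarith [sl1 (a := a) (δ := δ) (P := P) k (rw i), H.E1 k (rw i) (by omega) (by omega)]
    · linarith [sl2 (a := a) (δ := δ) (P := P) k (rw i), H.E2 k (rw i) (by omega) (by omega)]
  · have h1 : rw i + 1 = m := by omega
    rw [show rw i + 2 = m + 1 by omega, h1]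
    obtain ⟨k, rfl | rfl⟩ := Nat.even_or_odd' l
    · linarith [sl1f (a := a) (δ := δ) hs k (rw i) (sn i) h1 (by omega), H.E1f k (rw i) (sn i) h1 (by omega)]
    · linarith [sl2f (a := a) (δ := δ) hs k (rw i) (sn i) h1 (by omega), H.E2f k (rw i) (sn i) h1 (by omega)]

/-- coordinate `k < m` from `yd`, the last one from `sm` (both signs) and `s0` -/
theorem wt_of_hive (hm : 1 ≤ m) (H : IsBdry m (wt a) (wt b) (wt c) (toArr a (dl b) P)) : a + wtP m (dl b) P = c := by
  have hw : ∀ (u : Fin (m + 1) → ℤ) (k : Fin (m + 1)), wt u (k + 1) = (u k : ℚ) / 2 := fun u k => by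
    rw [wt, dif_pos ⟨by omega, by omega⟩]
    rfl
  funext k
  suffices h : ((a k : ℚ) + (wtP m (dl b) P k : ℚ)) = c k by exact_mod_cast h
  unfold wtP
  split_ifs with h
  · have h1 := H.yd k h
    simp only [toArr, Lam_succ, hw, show 2 * ((k : ℕ) + 1) - 1 = 2 * k + 1 by omega, sum_add_distrib, sum_const, card_range,
      nsmul_eq_mul] at h1
    push_cast at h1 ⊢
    linarith
  · obtain rfl : k = Fin.last m := Fin.ext (by have := k.2; simp only [Fin.val_last]; omega)
    have h1 := H.sm true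
    have h2 := H.sm false
    have h3 := hw a (Fin.last m)
    have h4 := hw b (Fin.last m)
    have h5 := hw c (Fin.last m)
    rw [Fin.val_last] at h3 h4 h5
    rw [h4, h5] at h1 h2
    simp only [toArr, h3, sg, sum_add_distrib, if_true, Bool.false_eq_true, if_false] at h1 h2
    rw [sum_sub_distrib, dl]
    rw [dl] at h1 h2
    push_cast
    linarith

end Crest.Agent.R172.P
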