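import Crest.Agent.R172.P.Arr

/-! Row 172, block L2: from patterns to hives. -/

set_option autoImplicit false

namespace Crest.Agent.R172.P

open Crest.AlgebraR.SpinSaturation Finset

variable {m : ℕ} {a b c : Fin (m + 1) → ℤ} {P : Pat}

/-- `yd`, `sm`, `sn` are the coordinates of `hw` (`wt (a + w) = wt a + wt w`), `xd` is `h.bd` + `wt_cc`, `top` is `top_of_sum` -/
theorem bdry_toArr (hm : 1 ≤ m) (hb : IsDominantIntegral (m + 1) b) (h : IsPat m (cc b) (dl b) P)
    (hw : a + wtP m (dl b) P = c) : IsBdry m (wt a) (wt b) (wt c) (toArr a (dl b) P) := by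
  subst hw
  have hmu : wt b (m + 1) = (dl b : ℚ) / 2 := Arr_wt m (by omega)
  have hsm : ∀ e, (toArr a (dl b) P).s e m = ((toArr a (dl b) P).x m m +
      sg e * (wt (a + wtP m (dl b) P) (m + 1) - wt b (m + 1))) / 2 := by
    intro e
    rw [top_of_sum h.sum m le_rfl, hmu, Arr_wt (a := a + wtP m (dl b) P) m (by omega)]
    have h1 := Arr_wt (a := a) m (by omega)
    simp only [toArr, Pi.add_apply, wtP, lt_irrefl, if_false, sum_add_distrib, sum_sub_distrib, h1]
    push_cast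
    cases e <;> simp only [sg, if_true, Bool.false_eq_true, if_false] <;> ring
  refine ⟨?_, fun t _ => ?_, fun k hk => ?_, fun k hk => ?_, top_of_sum h.sum, fun e => ?_, hsm, fun e => ?_⟩
  · simp [toArr, Lam]
  · simp [toArr, Lam_succ]
  · rw [Arr_wt (a := a + wtP m (dl b) P) k (by omega)]
    have h1 := Arr_wt (a := a) k (by omega)
    have e : 2 * (k + 1) - 1 = 2 * k + 1 := by omega
    simp only [toArr, Pi.add_apply, wtP, if_pos (show k < m by omega), sum_add_distrib, Lam_succ, h1, e, sum_const, card_range,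
      nsmul_eq_mul]
    push_cast
    ring
  · rw [x_sub_y, h.bd k (by omega), wt_cc hb k (by omega)]
  · simp [toArr]
  · rw [s_succ, hsm e, h.top e, hmu]
    cases e <;> simp only [sg, if_true, Bool.false_eq_true, if_false] <;> push_cast <;> ring

/-- P, A, B, C, D, Pf, Bf from `adj`, `dec`, `fork` (rewrite with `y_sub_x`, `x_sub_y`, `s_succ`, `top_of_sum`, cast, `linarith`);
E1, E2 (node `t`), E1f, E2f (node `m - 1` for `e = true`, `m` for `e = false`) from `sl*`, `pr_eq`, `epsZ_le_iff`. -/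
theorem conc_toArr {c' : ℕ → ℤ} {δ : ℤ} (hm : 1 ≤ m) (h : IsPat m c' δ P)
    (he : ∀ (i : Fin (m + 1)) (l : ℕ), l ≤ 2 * rw i → 0 ≤ 2 * Mi P i l + pr m i a) : IsConc m (toArr a δ P) := by
  have node : ∀ (t l : ℕ), t + 2 ≤ m → l ≤ 2 * t →
      (0 : ℚ) ≤ M (P.Z t) (P.Z (t + 1)) (P.Z (t + 2)) l + (wt a (t + 1) - wt a (t + 2)) := by
    intro t l ht hl
    have hr : rw (⟨t, by omega⟩ : Fin (m + 1)) = t := by simp only [rw]; omega
    have hs : sn (⟨t, by omega⟩ : Fin (m + 1)) = true := by simp only [sn, decide_eq_true_eq]; omega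
    have h1 := he ⟨t, by omega⟩ l (by rw [hr]; exact hl)
    have h2 := pr_eq (a := a) hm ⟨t, by omega⟩
    rw [hr, hs] at h2
    simp only [Mi, Lc, Zc, Rc, hr, if_pos (show t + 1 < m by omega)] at h1
    have h3 : (0 : ℚ) ≤ 2 * (M (P.Z t) (P.Z (t + 1)) (P.Z (t + 2)) l : ℤ) +
        (pr m (⟨t, by omega⟩ : Fin (m + 1)) a : ℤ) := by exact_mod_cast h1
    simp only [sg, if_true] at h2
    linarith
  have nodef : ∀ (t l : ℕ) (e : Bool), t + 1 = m → l ≤ 2 * t →
      (0 : ℚ) ≤ M (P.Z t) (P.Z m) (P.S e) l + (wt a m - sg e * wt a (m + 1)) := by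
    intro t l e ht hl
    obtain ⟨i, hr, hs⟩ : ∃ i : Fin (m + 1), rw i = t ∧ sn i = e := by
      cases e
      · exact ⟨⟨m, by omega⟩, by simp only [rw]; omega, by simp [sn]⟩
      · exact ⟨⟨t, by omega⟩, by simp only [rw]; omega, by simp only [sn, decide_eq_true_eq]; omega⟩
    have h1 := he i l (by rw [hr]; exact hl)
    have h2 := pr_eq (a := a) hm i
    rw [hr, hs, show t + 2 = m + 1 by omega, ht] at h2
    simp only [Mi, Lc, Zc, Rc, hr, hs, ht, lt_irrefl, if_false] at h1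
    have h3 : (0 : ℚ) ≤ 2 * (M (P.Z t) (P.Z m) (P.S e) l : ℤ) + (pr m i a : ℤ) := by exact_mod_cast h1
    linarith
  refine ⟨?_, ?_, ?_, ?_, ?_, ?_, ?_, ?_, ?_, ?_, ?_, ?_⟩
  · intro k t h1 h2
    have h3 : ((P.Z t (2 * k) : ℤ) : ℚ) ≤ (P.Z (t + 1) (2 * k) : ℤ) := by
      exact_mod_cast (h.adj t h2).p1 k (by omega)
    simp only [Arr.p1, y_sub_x]; linarith
  · intro k t h1 h2
    have h3 : ((P.Z (t + 1) (2 * k + 1) : ℤ) : ℚ) ≤ (P.Z t (2 * k + 1) : ℤ) := by
      exact_mod_cast (h.adj t h2).p2 k (by omega)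
    simp only [Arr.p2, x_sub_y]; linarith
  · intro k e h1
    have h3 := (h.fork e).p1 k (by omega)
    simp only [Pat.S, show 2 * k / 2 = k by omega] at h3
    have h4 : ((P.Z m (2 * k) : ℤ) : ℚ) ≤ (P.s e k : ℤ) := by exact_mod_cast h3
    have h5 := top_of_sum (a := a) (δ := δ) h.sum k (by omega)
    simp only [Arr.pf, y_sub_x, s_succ]
    cases e <;> simp only [Bool.not_false, Bool.not_true] <;> linarith
  · intro k t h1 h2
    have h3 := node t (2 * k) h2 (by omega)
    have h4 := sl1 (a := a) (δ := δ) (P := P) k t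
    linarith
  · intro k t h1 h2
    have h3 := node t (2 * k + 1) h2 (by omega)
    have h4 := sl2 (a := a) (δ := δ) (P := P) k t
    linarith
  · intro k t e h1 h2
    have h3 := nodef t (2 * k) e h1 (by omega)
    have h4 := sl1f (a := a) (δ := δ) h.sum k t e h1 h2
    linarith
  · intro k t e h1 h2
    have h3 := nodef t (2 * k + 1) e h1 (by omega)
    have h4 := sl2f (a := a) (δ := δ) h.sum k t e h1 (by omega)
    linarith
  · intro k e h1
    have h3 := (h.fork (!e)).c k (by omega)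
    simp only [Pat.S, show (2 * k + 1) / 2 = k by omega, show (2 * k + 2) / 2 = k + 1 by omega] at h3
    have h4 := h.sum k (by omega)
    have h5 : P.s (!e) (k + 1) ≤ P.s e k := by
      cases e <;> simp only [Bool.not_false, Bool.not_true] at h3 ⊢ <;> omega
    have h6 : ((P.s (!e) (k + 1) : ℤ) : ℚ) ≤ (P.s e k : ℤ) := by exact_mod_cast h5
    have h7 := s_succ (a := a) (δ := δ) (P := P) (!e) (k + 1)
    have h8 := s_succ (a := a) (δ := δ) (P := P) e k
    cases e <;> simp only [Bool.not_false, Bool.not_true] at h6 h7 h8 ⊢ <;> linarith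
  · intro k t h1 h2
    have h3 : ((P.Z (t + 1) (2 * (k + 1) + 1) : ℤ) : ℚ) ≤ (P.Z (t + 1) (2 * k + 1) : ℤ) := by
      exact_mod_cast h.dec (t + 1) h2 (2 * k + 1) (by omega)
    have h4 := x_sub_y (a := a) (δ := δ) (P := P) (k + 1) (t + 1)
    have h5 := x_sub_y (a := a) (δ := δ) (P := P) k (t + 1)
    linarith
  · intro k t h1 h2
    have h3 : ((P.Z (t + 1) (2 * (k + 1)) : ℤ) : ℚ) ≤ (P.Z (t + 1) (2 * k) : ℤ) := by
      exact_mod_cast h.dec (t + 1) h2 (2 * k) (by omega)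
    have h4 := y_sub_x (a := a) (δ := δ) (P := P) (k + 1) (t + 1)
    have h5 := y_sub_x (a := a) (δ := δ) (P := P) k (t + 1)
    linarith
  · intro k t h1 h2
    have h3 : ((P.Z (t + 1) (2 * k + 1) : ℤ) : ℚ) + (P.Z (t + 1) (2 * (k + 1)) : ℤ) ≤
        (P.Z t (2 * k) : ℤ) + (P.Z t (2 * k + 1) : ℤ) := by
      exact_mod_cast (h.adj t h2).c k (by omega)
    have h4 := y_sub_x (a := a) (δ := δ) (P := P) (k + 1) (t + 1)
    have h5 := x_sub_y (a := a) (δ := δ) (P := P) k (t + 1)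
    have h6 := y_sub_x (a := a) (δ := δ) (P := P) k t
    have h7 := x_sub_y (a := a) (δ := δ) (P := P) k t
    linarith
  · intro k t h1 h2
    have h3 : ((P.Z t (2 * (k + 1)) : ℤ) : ℚ) + (P.Z t (2 * (k + 1) + 1) : ℤ) ≤
        (P.Z (t + 1) (2 * k + 1) : ℤ) + (P.Z (t + 1) (2 * (k + 1)) : ℤ) := by
      exact_mod_cast (h.adj t h2).b k (by omega)
    have h4 := y_sub_x (a := a) (δ := δ) (P := P) (k + 1) (t + 1)
    have h5 := x_sub_y (a := a) (δ := δ) (P := P) k (t + 1)
    have h6 := y_sub_x (a := a) (δ := δ) (P := P) (k + 1) t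
    have h7 := x_sub_y (a := a) (δ := δ) (P := P) (k + 1) t
    linarith

end Crest.Agent.R172.P
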