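import Crest.Agent.R172.P.Ops

/-! Row 172, block L2: the choice of the violated node (helper16). -/

set_option autoImplicit false

namespace Crest.Agent.R172.P

open Crest.AlgebraR.SpinSaturation Finset

variable {m : ℕ}

theorem sel_M_row {L Z R L' Z' R' : ℕ → ℤ} {k : ℕ} (hL : ∀ l, l < 2 * k → L' l = L l)
    (hZ : ∀ l, l < 2 * k → Z' l = Z l) (hR : ∀ l, l < 2 * k → R' l = R l) :
    M L' Z' R' (2 * k) = M L Z R (2 * k) + (Z' (2 * k) - Z (2 * k)) - (R' (2 * k) - R (2 * k)) := by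
  cases k with
  | zero => simp only [Nat.mul_zero, M]; ring
  | succ k =>
    have e : 2 * (k + 1) = 2 * k + 2 := by ring
    rw [e, M_even_succ, M_even_succ,
      M_congr (L' := L) (Z' := Z) (R' := R) (i := 2 * k + 1) (fun l hl => hL l (by omega))
        (fun l hl => hZ l (by omega)) (fun l hl => hR l (by omega)),
      hZ (2 * k + 1) (by omega), hR (2 * k + 1) (by omega)]
    ring

/-- slack at the first position of row `k` -/
def sA (lam : Fin (m + 1) → ℤ) (P : Pat) (k : ℕ) (i : Fin (m + 1)) : ℤ := Mi P i (2 * k) + lam i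

/-- difference of the row sums of the columns `r + 1` and `r` -/
def sD (P : Pat) (k r : ℕ) : ℤ := P.Z (r + 1) (2 * k) + P.Z (r + 1) (2 * k + 1) - P.Z r (2 * k) - P.Z r (2 * k + 1)

theorem sel_odd (lam : Fin (m + 1) → ℤ) (P : Pat) (k : ℕ) (i : Fin (m + 1)) :
    Mi P i (2 * k + 1) + lam i = sA lam P k i + sD P k (rw i) := by
  simp only [sA, sD, Mi, M_odd, Lc, Zc]
  ring

/-- node `i` is violated in row `k` -/
def sW (lam : Fin (m + 1) → ℤ) (P : Pat) (k : ℕ) (i : Fin (m + 1)) : Prop :=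
  (k ≤ rw i ∧ sA lam P k i < 0) ∨ (k < rw i ∧ sA lam P k i + sD P k (rw i) < 0)

/-- node `i` is violated in the first half of the tableau row `k` -/
def sU (lam : Fin (m + 1) → ℤ) (P : Pat) (k : ℕ) (i : Fin (m + 1)) : Prop :=
  (i : ℕ) + 1 < m ∧ ((k ≤ rw i ∧ sA lam P k i < 0 ∧ sA lam P k i + sD P k (rw i + 1) < 0) ∨
    (k < rw i ∧ sA lam P k i + sD P k (rw i) < 0 ∧ sA lam P k i + sD P k (rw i) + sD P k (rw i + 1) < 0))

theorem sU.w {lam : Fin (m + 1) → ℤ} {P : Pat} {k : ℕ} {i : Fin (m + 1)} (h : sU lam P k i) : sW lam P k i := by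
  rcases h.2 with h | h
  · exact Or.inl ⟨h.1, h.2.1⟩
  · exact Or.inr ⟨h.1, h.2.1⟩

/-- the selected node, for abstract predicates -/
def sSel (m : ℕ) (U W : Fin (m + 1) → Prop) (i : Fin (m + 1)) : Prop :=
  (U i ∧ ∀ i', i' < i → ¬ U i') ∨
    ((∀ i', ¬ U i') ∧ W i ∧ ((i : ℕ) + 1 = m ∨ ∀ i', (i < i' ∨ (i' : ℕ) + 1 = m) → ¬ W i'))

theorem sSel_ex {U W : Fin (m + 1) → Prop} (h : ∃ i, W i) : ∃ i, sSel m U W i := by
  classical
  by_cases hU : ∃ i, U i
  · obtain ⟨i, hi, hmin⟩ := WellFounded.has_min (wellFounded_lt (α := Fin (m + 1))) {i | U i} hU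
    exact ⟨i, Or.inl ⟨hi, fun i' hlt hu => hmin i' hu hlt⟩⟩
  · push Not at hU
    by_cases hW : ∃ i : Fin (m + 1), (i : ℕ) + 1 = m ∧ W i
    · obtain ⟨i, h1, h2⟩ := hW
      exact ⟨i, Or.inr ⟨hU, h2, Or.inl h1⟩⟩
    · obtain ⟨i, hi, hmax⟩ := WellFounded.has_min (wellFounded_gt (α := Fin (m + 1))) {i | W i} h
      refine ⟨i, Or.inr ⟨hU, hi, Or.inr fun i' h' hw => ?_⟩⟩
      rcases h' with h' | h'
      · exact hmax i' hw h'
      · exact hW ⟨i', h', hw⟩

theorem sSel_uniq {U W : Fin (m + 1) → Prop} {i i' : Fin (m + 1)} (h : sSel m U W i) (h' : sSel m U W i') : i = i' := by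
  rcases h with ⟨h1, h2⟩ | ⟨h1, h2, h3⟩ <;> rcases h' with ⟨g1, g2⟩ | ⟨g1, g2, g3⟩
  · rcases lt_trichotomy i i' with h | h | h
    · exact absurd h1 (g2 i h)
    · exact h
    · exact absurd g1 (h2 i' h)
  · exact absurd h1 (g1 i)
  · exact absurd g1 (h1 i')
  · rcases h3 with h3 | h3 <;> rcases g3 with g3 | g3
    · exact Fin.ext (by omega)
    · exact absurd h2 (g3 i (Or.inr h3))
    · exact absurd g2 (h3 i' (Or.inr g3))
    · rcases lt_trichotomy i i' with h | h | h
      · exact absurd g2 (h3 i' (Or.inl h))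
      · exact h
      · exact absurd h2 (g3 i (Or.inl h))

theorem sSel_iff {U W U' W' : Fin (m + 1) → Prop} {i : Fin (m + 1)} (hUW : ∀ i, U i → W i) (hUW' : ∀ i, U' i → W' i)
    (hlt : ∀ i, U i → (i : ℕ) + 1 < m) (hlt' : ∀ i, U' i → (i : ℕ) + 1 < m)
    (h1 : ∀ i', i' ≤ i → (U' i' ↔ U i')) (h3 : W i) (h3' : W' i)
    (h4 : ¬ U i → (i : ℕ) + 1 ≠ m → ∀ i', (i < i' ∨ (i' : ℕ) + 1 = m) → (W' i' ↔ W i')) :
    sSel m U' W' i ↔ sSel m U W i := by
  have hi := h1 i le_rfl
  by_cases hU : U i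
  · have hU' := hi.2 hU
    constructor
    · rintro (⟨-, g⟩ | ⟨g, -⟩)
      · exact Or.inl ⟨hU, fun i' h hu => g i' h ((h1 i' h.le).2 hu)⟩
      · exact absurd hU' (g i)
    · rintro (⟨-, g⟩ | ⟨g, -⟩)
      · exact Or.inl ⟨hU', fun i' h hu => g i' h ((h1 i' h.le).1 hu)⟩
      · exact absurd hU (g i)
  · have hU' : ¬ U' i := fun h => hU (hi.1 h)
    by_cases hm : (i : ℕ) + 1 = m
    · constructor
      · rintro (⟨g, -⟩ | ⟨g, -⟩)
        · exact absurd g hU'
        · refine Or.inr ⟨fun i' hu => g i' ((h1 i' ?_).2 hu), h3, Or.inl hm⟩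
          have := hlt i' hu
          exact Fin.le_def.2 (by omega)
      · rintro (⟨g, -⟩ | ⟨g, -⟩)
        · exact absurd g hU
        · refine Or.inr ⟨fun i' hu => g i' ((h1 i' ?_).1 hu), h3', Or.inl hm⟩
          have := hlt' i' hu
          exact Fin.le_def.2 (by omega)
    · have h5 := h4 hU hm
      constructor
      · rintro (⟨g, -⟩ | ⟨g, -, g2 | g2⟩)
        · exact absurd g hU'
        · exact absurd g2 hm
        · refine Or.inr ⟨fun i' hu => ?_, h3, Or.inr fun i' h hw => g2 i' h ((h5 i' h).2 hw)⟩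
          rcases le_or_gt i' i with h | h
          · exact g i' ((h1 i' h).2 hu)
          · exact g2 i' (Or.inl h) ((h5 i' (Or.inl h)).2 (hUW i' hu))
      · rintro (⟨g, -⟩ | ⟨g, -, g2 | g2⟩)
        · exact absurd g hU
        · exact absurd g2 hm
        · refine Or.inr ⟨fun i' hu => ?_, h3', Or.inr fun i' h hw => g2 i' h ((h5 i' h).1 hw)⟩
          rcases le_or_gt i' i with h | h
          · exact g i' ((h1 i' h).1 hu)
          · exact g2 i' (Or.inl h) ((h5 i' (Or.inl h)).1 (hUW' i' hu))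

section
variable {lam : Fin (m + 1) → ℤ} {P : Pat} {i : Fin (m + 1)} {j k : ℕ} {d : ℤ}

theorem sel_Z (t l : ℕ) : (mv P i j d).Z t l = P.Z t l + if t = rw i + 1 ∧ l = j then d else 0 := by
  by_cases h1 : t = rw i + 1 <;> by_cases h2 : l = j <;> simp [mv, up, h1, h2]

theorem sel_S (e : Bool) (l : ℕ) :
    (mv P i j d).S e l = P.S e l + if (rw i + 1 = m ∧ e = !sn i) ∧ l / 2 = j / 2 then d else 0 := by
  by_cases h1 : rw i + 1 = m ∧ e = !sn i <;> by_cases h2 : l / 2 = j / 2 <;>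
    simp only [Pat.S, mv, up, h1, h2, if_true, if_false, and_self, and_true, and_false, false_and, add_zero]

theorem sel_R (i' : Fin (m + 1)) (l : ℕ) : Rc (mv P i j d) i' l = Rc P i' l +
    if rw i' + 1 < m then (if rw i' + 2 = rw i + 1 ∧ l = j then d else 0)
    else (if (rw i + 1 = m ∧ sn i' = !sn i) ∧ l / 2 = j / 2 then d else 0) := by
  unfold Rc
  split_ifs with h h1 h2
  · rw [sel_Z, if_pos h1]
  · rw [sel_Z, if_neg h1]
  · rw [sel_S, if_pos h2]
  · rw [sel_S, if_neg h2]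

theorem sel_D (r : ℕ) : sD (mv P i j d) k r = sD P k r +
    if j / 2 = k then (if r = rw i then d else if r = rw i + 1 then -d else 0) else 0 := by
  simp only [sD, sel_Z]
  split_ifs <;> omega

theorem sel_A (hk : k ≤ j / 2) (i' : Fin (m + 1)) : sA lam (mv P i j d) k i' = sA lam P k i' +
    (if rw i' = rw i ∧ 2 * k = j then d else 0) -
    if rw i' + 1 < m then (if rw i' + 2 = rw i + 1 ∧ 2 * k = j then d else 0)
    else (if (rw i + 1 = m ∧ sn i' = !sn i) ∧ k = j / 2 then d else 0) := by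
  unfold sA Mi
  rw [sel_M_row (L := Lc P i') (Z := Zc P i') (R := Rc P i')]
  · rw [sel_R, Zc, Zc, sel_Z]
    have e : 2 * k / 2 = k := by omega
    rw [e]
    have e2 : (rw i' + 1 = rw i + 1) = (rw i' = rw i) := by simp
    simp only [e2]
    ring
  · intro l hl
    rw [Lc, Lc, sel_Z, if_neg (by omega), add_zero]
  · intro l hl
    rw [Zc, Zc, sel_Z, if_neg (by omega), add_zero]
  · intro l hl
    rw [sel_R, if_neg (show ¬ (rw i' + 2 = rw i + 1 ∧ l = j) by omega),
      if_neg (show ¬ ((rw i + 1 = m ∧ sn i' = !sn i) ∧ l / 2 = j / 2) by omega), ite_self, add_zero]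

theorem sel_lt (hk : k < j / 2) :
    (∀ i', sW lam (mv P i j d) k i' ↔ sW lam P k i') ∧ ∀ i', sU lam (mv P i j d) k i' ↔ sU lam P k i' := by
  have hA : ∀ i', sA lam (mv P i j d) k i' = sA lam P k i' := fun i' => by
    rw [sel_A hk.le, if_neg (show ¬ (rw i' = rw i ∧ 2 * k = j) by omega),
      if_neg (show ¬ (rw i' + 2 = rw i + 1 ∧ 2 * k = j) by omega),
      if_neg (show ¬ ((rw i + 1 = m ∧ sn i' = !sn i) ∧ k = j / 2) by omega), ite_self]
    ring
  have hD : ∀ r, sD (mv P i j d) k r = sD P k r := fun r => by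
    rw [sel_D, if_neg (by omega), add_zero]
  exact ⟨fun i' => by simp only [sW, hA, hD], fun i' => by simp only [sU, hA, hD]⟩

theorem sel_viol : lam i < epsZ P i ↔ ∃ k, sW lam P k i := by
  rw [← not_le, epsZ_le_iff]
  push Not
  constructor
  · rintro ⟨l, hl, h⟩
    refine ⟨l / 2, ?_⟩
    rcases Nat.even_or_odd' l with ⟨k, rfl | rfl⟩
    · rw [show 2 * k / 2 = k by omega]
      exact Or.inl ⟨by omega, h⟩
    · rw [show (2 * k + 1) / 2 = k by omega]
      exact Or.inr ⟨by omega, by rwa [← sel_odd]⟩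
  · rintro ⟨k, ⟨h1, h2⟩ | ⟨h1, h2⟩⟩
    · exact ⟨2 * k, by omega, h2⟩
    · exact ⟨2 * k + 1, by omega, by rwa [sel_odd]⟩

/-- the position of the last minimum -/
theorem sel_pos (h : lam i < epsZ P i) (hj : IsLp (Mi P i) (2 * rw i) j) (hk : j / 2 = k) :
    (j = 2 * k ∧ k ≤ rw i ∧ sA lam P k i < 0 ∧ (k < rw i → 0 < sD P k (rw i))) ∨
      (j = 2 * k + 1 ∧ k < rw i ∧ sD P k (rw i) ≤ 0 ∧ sA lam P k i + sD P k (rw i) < 0) := by
  rw [epsZ_eq_lp, hj.eq] at h
  have h1 := hj.le
  have h2 := sel_odd lam P k i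
  have h3 : sA lam P k i = Mi P i (2 * k) + lam i := rfl
  rcases (show j = 2 * k ∨ j = 2 * k + 1 by omega) with rfl | rfl
  · refine Or.inl ⟨rfl, by omega, by omega, fun hlt => ?_⟩
    have := hj.lt (2 * k + 1) (by omega) (by omega)
    omega
  · have := hj.min (2 * k) (by omega)
    exact Or.inr ⟨rfl, by omega, by omega, by omega⟩

theorem sel_eq (hm : 1 ≤ m) (h : lam i < epsZ P i) (hj : IsLp (Mi P i) (2 * rw i) j) (hk : j / 2 = k) :
    sW lam P k i ∧ sW lam (mv P i j (-1)) k i ∧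
    (sSel m (sU lam (mv P i j (-1)) k) (sW lam (mv P i j (-1)) k) i ↔ sSel m (sU lam P k) (sW lam P k) i) := by
  have hp := sel_pos h hj hk
  have hr : ∀ i' : Fin (m + 1), (rw i' = i' ∧ (i' : ℕ) < m ∧ sn i' = true) ∨
      (rw i' + 1 = m ∧ (i' : ℕ) = m ∧ sn i' = false) := fun i' => by
    have := i'.2
    unfold rw sn
    by_cases h' : (i' : ℕ) < m
    · exact Or.inl ⟨by omega, h', by simp [h']⟩
    · exact Or.inr ⟨by omega, by omega, by simp [h']⟩
  have hA := fun i' => sel_A (lam := lam) (P := P) (i := i) (j := j) (k := k) (d := -1) hk.ge i'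
  have hD := fun r => sel_D (P := P) (i := i) (j := j) (k := k) (d := -1) r
  simp only [if_pos hk] at hD
  have hAi := hA i
  have hDi := hD (rw i)
  have hDi1 := hD (rw i + 1)
  rw [if_pos rfl] at hDi
  rw [if_neg (by omega), if_pos rfl] at hDi1
  rw [if_neg (show ¬ (rw i + 2 = rw i + 1 ∧ 2 * k = j) by omega),
    if_neg (show ¬ ((rw i + 1 = m ∧ sn i = !sn i) ∧ k = j / 2) by simp), ite_self] at hAi
  have w1 : sW lam P k i := by
    unfold sW
    omega
  have w2 : sW lam (mv P i j (-1)) k i := by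
    unfold sW
    split_ifs at hAi <;> omega
  refine ⟨w1, w2, sSel_iff (fun _ h => h.w) (fun _ h => h.w) (fun _ h => h.1) (fun _ h => h.1) ?_ w1 w2 ?_⟩
  · intro i' hi'
    rcases eq_or_lt_of_le hi' with rfl | hlt
    · unfold sU
      split_ifs at hAi <;> omega
    · have hlt' : (i' : ℕ) < i := hlt
      by_cases h0 : (i' : ℕ) + 1 < m
      · have a1 := hA i'
        have a2 := hD (rw i')
        have a3 := hD (rw i' + 1)
        have r1 := hr i
        have r2 := hr i'
        have e1 : rw i' = i' := by omega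
        have e2 : rw i' < rw i := by omega
        rw [if_neg (show ¬ (rw i' = rw i ∧ 2 * k = j) by omega), if_pos (show rw i' + 1 < m by omega)] at a1
        rw [if_neg (show ¬ (rw i' = rw i) by omega), if_neg (show ¬ (rw i' = rw i + 1) by omega)] at a2
        rw [if_neg (show ¬ (rw i' + 1 = rw i + 1) by omega)] at a3
        by_cases h1 : rw i' + 1 = rw i
        · rw [if_pos h1] at a3
          rw [← h1] at hp
          unfold sU
          split_ifs at a1 <;> omega
        · rw [if_neg h1] at a3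
          rw [if_neg (show ¬ (rw i' + 2 = rw i + 1 ∧ 2 * k = j) by omega)] at a1
          unfold sU
          omega
      · unfold sU
        omega
  · intro hU hne i' hi'
    have a1 := hA i'
    have a2 := hD (rw i')
    rcases hr i with ⟨r1, r2, r3⟩ | ⟨r1, r2, r3⟩
    · have hi2 : (i : ℕ) < i' := by
        rcases hi' with h' | h'
        · exact h'
        · omega
      have e2 : rw i < rw i' := by rcases hr i' with h' | h' <;> omega
      rw [if_neg (show ¬ (rw i' = rw i ∧ 2 * k = j) by omega),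
        if_neg (show ¬ (rw i' + 2 = rw i + 1 ∧ 2 * k = j) by omega),
        if_neg (show ¬ ((rw i + 1 = m ∧ sn i' = !sn i) ∧ k = j / 2) by omega), ite_self] at a1
      rw [if_neg (show ¬ (rw i' = rw i) by omega)] at a2
      by_cases h1 : rw i' = rw i + 1
      · rw [if_pos h1] at a2
        unfold sU at hU
        unfold sW
        rw [h1] at a2 ⊢
        omega
      · rw [if_neg h1] at a2
        unfold sW
        omega
    · have hi2 : (i' : ℕ) + 1 = m := by
        rcases hi' with h' | h'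
        · have h2 : (i : ℕ) < i' := h'
          have := i'.2
          omega
        · exact h'
      obtain ⟨s1, -, s3⟩ : rw i' = i' ∧ (i' : ℕ) < m ∧ sn i' = true := by
        rcases hr i' with h' | h'
        · exact h'
        · omega
      have e2 : rw i' = rw i := by omega
      rw [if_neg (show ¬ (rw i' + 1 < m) by omega),
        if_pos (show (rw i + 1 = m ∧ sn i' = !sn i) ∧ k = j / 2 from ⟨⟨r1, by rw [s3, r3]; rfl⟩, hk.symm⟩)] at a1
      unfold sW
      rw [e2] at a1 ⊢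
      split_ifs at a1 <;> omega

end

open Classical in
/-- the first violated row -/
noncomputable def sK (lam : Fin (m + 1) → ℤ) (P : Pat) : ℕ :=
  if h : ∃ k, ∃ i, sW lam P k i then Nat.find h else 0

theorem sK_spec {lam : Fin (m + 1) → ℤ} {P : Pat} {k : ℕ} {i : Fin (m + 1)} (h : sW lam P k i) :
    sK lam P ≤ k ∧ ∃ i', sW lam P (sK lam P) i' := by
  classical
  have h' : ∃ k, ∃ i, sW lam P k i := ⟨k, i, h⟩
  rw [sK, dif_pos h']
  exact ⟨Nat.find_min' h' ⟨i, h⟩, Nat.find_spec h'⟩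

open Classical in
/-- the selected node -/
noncomputable def sI (lam : Fin (m + 1) → ℤ) (P : Pat) : Fin (m + 1) :=
  if h : ∃ i, sSel m (sU lam P (sK lam P)) (sW lam P (sK lam P)) i then h.choose else 0

theorem sI_spec {lam : Fin (m + 1) → ℤ} {P : Pat} {k : ℕ} {i : Fin (m + 1)} (h : sW lam P k i) :
    sSel m (sU lam P (sK lam P)) (sW lam P (sK lam P)) (sI lam P) := by
  have h' := sSel_ex (U := sU lam P (sK lam P)) (sK_spec h).2
  rw [sI, dif_pos h']
  exact h'.choose_spec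

theorem sI_iff {lam : Fin (m + 1) → ℤ} {P : Pat} {k : ℕ} {i : Fin (m + 1)} (h : sW lam P k i) (i' : Fin (m + 1)) :
    sI lam P = i' ↔ sSel m (sU lam P (sK lam P)) (sW lam P (sK lam P)) i' :=
  ⟨fun e => e ▸ sI_spec h, fun g => sSel_uniq (sI_spec h) g⟩

theorem exists_sel (hm : 1 ≤ m) (lam : Fin (m + 1) → ℤ) : ∃ ι : Pat → Fin (m + 1),
    (∀ P, (∃ i, lam i < epsZ P i) → lam (ι P) < epsZ P (ι P)) ∧
      ∀ i P, lam i < epsZ P i → (ι (F i P) = i ↔ ι P = i) := by
  refine ⟨sI lam, ?_, fun i P h => ?_⟩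
  · rintro P ⟨i, hi⟩
    obtain ⟨k, hk⟩ := sel_viol.1 hi
    refine sel_viol.2 ⟨sK lam P, ?_⟩
    rcases sI_spec hk with g | g
    · exact g.1.w
    · exact g.2.1
  · have hj := isLp_lp (Mi P i) (2 * rw i)
    unfold F
    generalize lp (Mi P i) (2 * rw i) = j at hj
    obtain ⟨w1, w2, w3⟩ := sel_eq hm h hj rfl
    obtain ⟨k1, i1, g1⟩ := sK_spec w1
    obtain ⟨k2, i2, g2⟩ := sK_spec w2
    have hK : sK lam (mv P i j (-1)) = sK lam P := by
      apply le_antisymm
      · rcases eq_or_lt_of_le k1 with e | e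
        · omega
        · exact (sK_spec (((sel_lt (d := -1) e).1 i1).2 g1)).1
      · rcases eq_or_lt_of_le k2 with e | e
        · omega
        · exact (sK_spec (((sel_lt (d := -1) e).1 i2).1 g2)).1
    rw [sI_iff w1, sI_iff w2, hK]
    rcases eq_or_lt_of_le k1 with e | e
    · rw [e]
      exact w3
    · obtain ⟨l1, l2⟩ := sel_lt (lam := lam) (P := P) (i := i) (d := -1) e
      rw [show sU lam (mv P i j (-1)) (sK lam P) = sU lam P (sK lam P) from funext fun i' => propext (l2 i'),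
        show sW lam (mv P i j (-1)) (sK lam P) = sW lam P (sK lam P) from funext fun i' => propext (l1 i')]

end Crest.Agent.R172.P
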