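import Crest.Agent.R172.P.Top
import Crest.Agent.R172.P.Sel
import Crest.Agent.R172.P.Fwd
import Crest.Agent.R172.P.Bwd

/-! Row 172, block L2: the crystal of patterns and `S_L2`. -/

set_option autoImplicit false

namespace Crest.Agent.R172.P

open Crest.AlgebraR.SpinSaturation Finset

variable {m : ℕ}

/-- the crystal of patterns -/
noncomputable def cry (hm : 1 ≤ m) {b : Fin (m + 1) → ℤ} (hb : IsDominantIntegral (m + 1) b) :
    Cry m b {P : Pat // IsPat m (cc b) (dl b) P} where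
  fin := finite_pat m _ _
  wt := fun P => wtP m (dl b) P.1
  eps := fun i P => (epsZ P.1 i).toNat
  phi := fun i P => (phiZ P.1 i).toNat
  e := fun i P => if h : 0 < epsZ P.1 i then ⟨E i P.1, isPat_E hm P.2 h⟩ else P
  f := fun i P => if h : 0 < phiZ P.1 i then ⟨F i P.1, isPat_F hm P.2 h⟩ else P
  pair := fun i P => by
    rw [pr_wtP hm P.2, Int.toNat_of_nonneg (epsZ_nonneg hm P.2), Int.toNat_of_nonneg (phiZ_nonneg hm P.2), phiZ]
    ring
  f_wt := fun i P h => by
    have h' : 0 < phiZ P.1 i := by omega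
    rw [dif_pos h']
    show wtP m (dl b) (F i P.1) = _
    rw [F, wtP_mv hm (isLp_lp _ _).le, neg_smul, one_smul, sub_eq_add_neg]
  f_eps := fun i P h => by
    have h' : 0 < phiZ P.1 i := by omega
    rw [dif_pos h']
    show (epsZ (F i P.1) i).toNat = _
    have := epsZ_nonneg (i := i) hm P.2
    rw [epsZ_F]
    omega
  e_f := fun i P h => by
    have h' : 0 < phiZ P.1 i := by omega
    have h0 := epsZ_nonneg (i := i) hm P.2
    have h1 : 0 < epsZ (F i P.1) i := by rw [epsZ_F]; omega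
    rw [dif_pos h']
    show (if h : 0 < epsZ (F i P.1) i then _ else _) = P
    rw [dif_pos h1]
    exact Subtype.ext E_F
  f_e := fun i P h => by
    have h' : 0 < epsZ P.1 i := by omega
    have h0 := phiZ_nonneg (i := i) hm P.2
    have h1 : 0 < phiZ (E i P.1) i := by rw [phiZ_E]; omega
    rw [dif_pos h']
    refine ⟨?_, ?_⟩
    · show 0 < (phiZ (E i P.1) i).toNat
      omega
    · show (if h : 0 < phiZ (E i P.1) i then _ else _) = P
      rw [dif_pos h1]
      exact Subtype.ext F_E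
  top := by
    refine ⟨⟨P0 m (cc b) (dl b), isPat_P0 (cc_dom hb).1 (cc_dom hb).2⟩, wtP_P0 hb, fun P => ⟨fun h => ?_, ?_⟩⟩
    · refine Subtype.ext (eq_P0 hm P.2 fun i => ?_)
      have := h i
      omega
    · rintro rfl i
      show (epsZ (P0 m (cc b) (dl b)) i).toNat = 0
      rw [epsZ_P0 hm]
      rfl
  sel := fun lam => by
    obtain ⟨ι, h1, h2⟩ := exists_sel hm fun i => (lam i : ℤ)
    refine ⟨fun P => ι P.1, fun P ⟨i, hi⟩ => ?_, fun i P hi hp => ?_⟩
    · have := h1 P.1 ⟨i, by omega⟩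
      show lam (ι P.1) < (epsZ P.1 (ι P.1)).toNat
      omega
    · have h' : 0 < phiZ P.1 i := by omega
      rw [dif_pos h']
      exact h2 i P.1 (by omega)

theorem s_L2 : S_L2 := by
  intro m hm b hb
  refine ⟨_, cry hm hb, fun a c _ => ⟨?_, ?_⟩⟩
  · rintro ⟨P, h1, h2⟩
    refine ⟨toArr a (dl b) P.1, ⟨bdry_toArr hm hb P.2 h2, conc_toArr hm P.2 fun i l hl => ?_⟩, isLat_toArr P.2.sum⟩
    have h3 : 2 * ((epsZ P.1 i).toNat : ℤ) ≤ pr m i a := h1 i
    have h4 := (epsZ_le_iff (P := P.1) (i := i)).1 le_rfl l hl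
    have h5 := epsZ_nonneg (i := i) hm P.2
    omega
  · rintro ⟨h, H, L⟩
    obtain ⟨P, hJ, hA⟩ := exists_pat hm hb H.1 L
    have H' := hA.hive H
    have hP := isPat_of_hive hm hb hJ H'
    refine ⟨⟨P, hP⟩, fun i => ?_, wt_of_hive hm H'.1⟩
    show 2 * ((epsZ P i).toNat : ℤ) ≤ pr m i a
    have h5 := epsZ_nonneg (i := i) hm hP
    have h6 := Mi_of_hive hm hP.sum H'.2 i _ (isFp_fp (Mi P i) (2 * rw i)).le
    have h7 : epsZ P i = -Mi P i (fp (Mi P i) (2 * rw i)) := rfl
    omega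

end Crest.Agent.R172.P
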