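import Crest.Agent.R172.P.Col

/-! Row 172, block L2: weights. -/

set_option autoImplicit false

namespace Crest.Agent.R172.P

open Crest.AlgebraR.SpinSaturation Finset

variable {m : ℕ} {c : ℕ → ℤ} {δ : ℤ} {P : Pat} {i : Fin (m + 1)} {j : ℕ}

theorem sum_up {Z : ℕ → ℤ} (d : ℤ) (N : ℕ) : ∑ l ∈ range N, up Z j d l = ∑ l ∈ range N, Z l + if j < N then d else 0 := by
  induction N with
  | zero => simp
  | succ N ih =>
    rw [sum_range_succ, sum_range_succ, ih]
    unfold up
    split_ifs <;> omega

theorem sum_half (u : ℕ → ℤ) (k : ℕ) : ∑ l ∈ range (2 * k + 1), u (l / 2) = 2 * ∑ l ∈ range k, u l + u k := by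
  induction k with
  | zero => simp
  | succ k ih =>
    have e1 : (2 * k + 1) / 2 = k := by omega
    have e2 : (2 * k + 1 + 1) / 2 = k + 1 := by omega
    rw [show 2 * (k + 1) + 1 = 2 * k + 1 + 1 + 1 by ring, sum_range_succ, sum_range_succ, ih, sum_range_succ, e1, e2]
    ring

theorem sum_two (u : ℕ → ℤ) (k : ℕ) : ∑ l ∈ range (2 * k), u l = ∑ l ∈ range k, (u (2 * l) + u (2 * l + 1)) := by
  induction k with
  | zero => simp
  | succ k ih =>
    rw [show 2 * (k + 1) = 2 * k + 1 + 1 by ring, sum_range_succ, sum_range_succ, ih, sum_range_succ]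
    ring

/-- `tot_eq`; at the fork (`rw i + 1 = m`) use `sum_half`, `sum_two`, `h.sum`, `h.top` -/
theorem pr_wtP (hm : 1 ≤ m) (h : IsPat m c δ P) : pr m i (wtP m δ P) = 2 * toti P i := by
  obtain ⟨r, rfl⟩ : ∃ r, m = r + 1 := ⟨m - 1, by omega⟩
  have k1 : ∑ j ∈ range (2 * r + 2), P.Z (r + 1) j = ∑ l ∈ range (r + 1), P.s true l + ∑ l ∈ range (r + 1), P.s false l := by
    rw [show 2 * r + 2 = 2 * (r + 1) by ring, sum_two, ← sum_add_distrib]
    exact sum_congr rfl fun l hl => (h.sum l (mem_range.1 hl)).symm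
  have k2 : ∀ e, ∑ j ∈ range (2 * r + 3), P.S e j = 2 * ∑ l ∈ range (r + 1), P.s e l + P.s e (r + 1) := by
    intro e
    rw [show 2 * r + 3 = 2 * (r + 1) + 1 by ring]
    exact sum_half (P.s e) (r + 1)
  have k3 := h.top true
  have k4 := h.top false
  simp only [if_true, Bool.false_eq_true, if_false] at k3 k4
  obtain ⟨i, hi⟩ := i
  unfold toti Lc Zc Rc
  rw [tot_eq]
  by_cases h1 : i < r
  · have e : rw (⟨i, hi⟩ : Fin (r + 1 + 1)) = i := by unfold rw; simp only; omega
    rw [e, if_pos (by omega)]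
    unfold pr
    rw [dif_pos (by simp only; omega)]
    unfold wtP
    simp only
    rw [if_pos (by omega), if_pos (by omega), show 2 * (i + 1) + 1 = 2 * i + 3 by ring, show 2 * (i + 1) = 2 * i + 2 by ring]
    ring
  · have e : rw (⟨i, hi⟩ : Fin (r + 1 + 1)) = r := by unfold rw; simp only; omega
    rw [e, if_neg (by omega), k1, k2]
    by_cases h2 : i = r
    · subst h2
      have e2 : sn (⟨i, hi⟩ : Fin (i + 1 + 1)) = true := by unfold sn; simp
      rw [e2, k3]
      unfold pr
      rw [dif_pos (by simp only; omega)]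
      unfold wtP
      simp only
      rw [if_pos (by omega), if_neg (by omega), sum_sub_distrib]
      ring
    · have h3 : i = r + 1 := by omega
      subst h3
      have e2 : sn (⟨r + 1, hi⟩ : Fin (r + 1 + 1)) = false := by unfold sn; simp
      rw [e2, k4]
      unfold pr
      rw [dif_neg (by simp only; omega)]
      unfold wtP
      simp only [Fin.val_last, Nat.add_sub_cancel]
      rw [if_pos (by omega), if_neg (by omega), sum_sub_distrib]
      ring

theorem wt_sumZ (d : ℤ) (t N : ℕ) : ∑ l ∈ range N, (mv P i j d).Z t l =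
    ∑ l ∈ range N, P.Z t l + if t = rw i + 1 ∧ j < N then d else 0 := by
  by_cases ht : t = rw i + 1
  · simp only [mv, sum_up, ht, true_and, if_true]
  · simp only [mv, ht, false_and, if_false, add_zero]

theorem wt_sumS (d : ℤ) (e : Bool) (N : ℕ) : ∑ l ∈ range N, (mv P i j d).s e l =
    ∑ l ∈ range N, P.s e l + if (rw i + 1 = m ∧ e = !sn i) ∧ j / 2 < N then d else 0 := by
  by_cases ht : rw i + 1 = m ∧ e = !sn i
  · simp only [mv, if_pos ht, sum_up]
    simp only [ht, true_and, and_self]
  · simp only [mv, ht, false_and, if_false, add_zero]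

/-- `sum_up`; coordinates `k = rw i`, `k = rw i + 1` and the others -/
theorem wtP_mv (hm : 1 ≤ m) (hj : j ≤ 2 * rw i) (d : ℤ) : wtP m δ (mv P i j d) = wtP m δ P + d • rt m i := by
  funext k
  have hk := k.2
  have hi := i.2
  have hr : rw i = min (i : ℕ) (m - 1) := rfl
  simp only [wtP, Pi.add_apply, Pi.smul_apply, smul_eq_mul, sum_sub_distrib, wt_sumZ, wt_sumS, rt, sn]
  by_cases h1 : (i : ℕ) < m
  · simp only [h1, decide_true, Bool.not_true, if_true, Bool.true_eq_false, and_false, false_and, if_false, and_true]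
    split_ifs <;> omega
  · simp only [h1, decide_false, Bool.not_false, if_false, Bool.false_eq_true, and_false, false_and, and_true]
    split_ifs <;> omega

end Crest.Agent.R172.P
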