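import Crest.Agent.R172.P.Ops
import Crest.Agent.R172.P.Wt

/-! Row 172, block L2: hive of a pattern, basic formulas. -/

set_option autoImplicit false

namespace Crest.Agent.R172.P

open Crest.AlgebraR.SpinSaturation Finset

variable {m : ℕ} {a b : Fin (m + 1) → ℤ} {δ : ℤ} {P : Pat}

theorem Lam_succ (t : ℕ) : Lam a (t + 1) = Lam a t + wt a (t + 1) := by
  simp only [Lam, sum_range_succ]

theorem y_sub_x (k t : ℕ) : (toArr a δ P).y (k + 1) t = (toArr a δ P).x k t + (P.Z t (2 * k) + δ / 2) := by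
  simp only [toArr]
  rw [show 2 * (k + 1) - 1 = 2 * k + 1 by omega, sum_range_succ, add_assoc]

theorem x_sub_y (k t : ℕ) : (toArr a δ P).x (k + 1) t = (toArr a δ P).y (k + 1) t + (P.Z t (2 * k + 1) + δ / 2) := by
  simp only [toArr]
  rw [show 2 * (k + 1) - 1 = 2 * k + 1 by omega, show 2 * (k + 1) = 2 * k + 1 + 1 by omega, sum_range_succ _ (2 * k + 1),
    add_assoc]

theorem s_succ (e : Bool) (k : ℕ) : (toArr a δ P).s e (k + 1) = (toArr a δ P).s e k + (P.s e k + δ / 2) := by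
  simp only [toArr]
  rw [sum_range_succ, add_assoc]

theorem top_of_sum (hs : Sum m P) (k : ℕ) (hk : k ≤ m) :
    (toArr a δ P).x k m = (toArr a δ P).s true k + (toArr a δ P).s false k := by
  induction k with
  | zero => simp [toArr, sg]; ring
  | succ k ih =>
    have h : (P.s true k : ℚ) + P.s false k = P.Z m (2 * k) + P.Z m (2 * k + 1) := by exact_mod_cast hs k (by omega)
    rw [x_sub_y, y_sub_x, s_succ, s_succ, ih (by omega)]
    linarith

theorem sum_of_top (h : ∀ k, k ≤ m → (toArr a δ P).x k m = (toArr a δ P).s true k + (toArr a δ P).s false k) :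
    Sum m P := by
  intro k hk
  have h1 := h (k + 1) (by omega)
  rw [x_sub_y, y_sub_x, s_succ, s_succ, h k (by omega)] at h1
  have h2 : (P.s true k : ℚ) + P.s false k = P.Z m (2 * k) + P.Z m (2 * k + 1) := by linarith
  exact_mod_cast h2

theorem wt_cc (hb : IsDominantIntegral (m + 1) b) (k : ℕ) (hk : k ≤ m) : wt b (k + 1) = cc b k + (dl b : ℚ) / 2 := by
  have hk' : k < m + 1 := by omega
  obtain ⟨r, hr⟩ := hb.1 ⟨k, hk'⟩ (Fin.last m)
  have h1 : cc b k = r := by
    simp only [cc, dif_pos hk', dl]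
    omega
  have h2 : wt b (k + 1) = (b ⟨k, hk'⟩ : ℚ) / 2 := by
    simp only [wt]
    rw [dif_pos ⟨by omega, by omega⟩]
    rfl
  have h3 : (b ⟨k, hk'⟩ : ℚ) - b (Fin.last m) = 2 * r := by
    have : b ⟨k, hk'⟩ - b (Fin.last m) = 2 * r := by omega
    exact_mod_cast this
  rw [h1, h2, dl]
  linarith

theorem Arr_wt (k : ℕ) (hk : k < m + 1) : wt a (k + 1) = (a ⟨k, hk⟩ : ℚ) / 2 := by
  simp only [wt]
  rw [dif_pos ⟨by omega, by omega⟩]
  rfl

theorem pr_eq (hm : 1 ≤ m) (i : Fin (m + 1)) :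
    (pr m i a : ℚ) = 2 * (wt a (rw i + 1) - sg (sn i) * wt a (rw i + 2)) := by
  by_cases h : (i : ℕ) < m
  · have h1 : rw i = i := by unfold rw; omega
    have h2 : sn i = true := by simp [sn, h]
    rw [h1, h2, Arr_wt i i.2, Arr_wt (i + 1) (by omega), pr, dif_pos h]
    simp only [sg, if_true]
    push_cast
    ring
  · have h1 : rw i = m - 1 := by unfold rw; have := i.2; omega
    have h2 : sn i = false := by simp [sn, h]
    rw [h1, h2, Arr_wt (m - 1) (by omega), show m - 1 + 2 = m + 1 by omega, Arr_wt m (by omega), pr, dif_neg h]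
    simp only [sg, Fin.last]
    push_cast
    simp
    ring

theorem isLat_toArr (hs : Sum m P) : IsLat m (toArr a δ P) := by
  refine ⟨fun k t _ _ => ⟨P.Z (t + 1) (2 * k) - P.Z t (2 * k), ?_⟩,
    fun k t _ _ => ⟨P.Z t (2 * k + 1) - P.Z (t + 1) (2 * k + 1), ?_⟩, fun k e hk => ⟨P.s e k - P.Z m (2 * k), ?_⟩⟩
  · rw [Arr.p1, y_sub_x, y_sub_x]; push_cast; ring
  · rw [Arr.p2, x_sub_y, x_sub_y]; push_cast; ring
  · rw [Arr.pf, y_sub_x, s_succ, top_of_sum hs k (by omega)]
    cases e <;> simp <;> ring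

/-- slack of E1 (`M_even`) -/
theorem sl1 (k t : ℕ) : (toArr a δ P).x k (t + 1) + (toArr a δ P).y (k + 1) (t + 1) - (toArr a δ P).y (k + 1) (t + 2) -
    (toArr a δ P).x k t = M (P.Z t) (P.Z (t + 1)) (P.Z (t + 2)) (2 * k) + (wt a (t + 1) - wt a (t + 2)) := by

  have e : 2 * (k + 1) - 1 = 2 * k + 1 := by omega
  have h1 := Lam_succ (a := a) t
  have h2 := Lam_succ (a := a) (t + 1)
  simp only [toArr, e, M_even, sum_add_distrib, sum_const, card_range, nsmul_eq_mul]
  push_cast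
  rw [h2, h1]
  ring

/-- slack of E2 (`sl1`, `M_odd`) -/
theorem sl2 (k t : ℕ) : (toArr a δ P).x (k + 1) (t + 1) + (toArr a δ P).y (k + 1) (t + 1) - (toArr a δ P).y (k + 1) (t + 2) -
    (toArr a δ P).x (k + 1) t = M (P.Z t) (P.Z (t + 1)) (P.Z (t + 2)) (2 * k + 1) + (wt a (t + 1) - wt a (t + 2)) := by

  have h1 := sl1 (a := a) (δ := δ) (P := P) k t
  rw [x_sub_y k (t + 1), x_sub_y k t, y_sub_x k t, M_odd]
  rw [y_sub_x k (t + 1)] at h1 ⊢
  push_cast
  linarith

/-- slack of E1f (`top_of_sum`, `M_even`, `sum_half`) -/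
theorem sl1f (hs : Sum m P) (k t : ℕ) (e : Bool) (ht : t + 1 = m) (hk : k + 1 ≤ m) :
    (toArr a δ P).s (!e) k + (toArr a δ P).y (k + 1) m - (toArr a δ P).s e (k + 1) - (toArr a δ P).x k t =
      M (P.Z t) (P.Z m) (P.S e) (2 * k) + (wt a m - sg e * wt a (m + 1)) := by

  subst ht
  have h0 : (toArr a δ P).s (!e) k = (toArr a δ P).x k (t + 1) - (toArr a δ P).s e k := by
    rw [top_of_sum hs k (by omega)]
    cases e <;> simp
  have e1 : 2 * (k + 1) - 1 = 2 * k + 1 := by omega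
  have h1 := Lam_succ (a := a) t
  have h2 := sum_half (P.s e) k
  rw [h0, s_succ]
  simp only [toArr, e1, M_even, Pat.S, h2, sum_add_distrib, sum_const, card_range, nsmul_eq_mul]
  push_cast
  rw [h1]
  ring

/-- slack of E2f -/
theorem sl2f (hs : Sum m P) (k t : ℕ) (e : Bool) (ht : t + 1 = m) (hk : k + 1 ≤ m) :
    (toArr a δ P).s (!e) (k + 1) + (toArr a δ P).y (k + 1) m - (toArr a δ P).s e k - (toArr a δ P).x (k + 1) t =
      M (P.Z t) (P.Z m) (P.S e) (2 * k + 1) + (wt a m - sg e * wt a (m + 1)) := by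

  have h1 := sl1f (a := a) (δ := δ) hs k t e ht hk
  have h2 : (P.s (!e) k : ℚ) + P.s e k = P.Z m (2 * k) + P.Z m (2 * k + 1) := by
    have := hs k (by omega)
    cases e
    · exact_mod_cast this
    · rw [add_comm]; exact_mod_cast this
  rw [s_succ (!e), x_sub_y k t, y_sub_x k t, M_odd]
  rw [s_succ e] at h1
  push_cast
  linarith

end Crest.Agent.R172.P
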