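import Crest.Agent.R172.P.Col

/-! Row 172, block L2: closure of one column under the operators. -/

set_option autoImplicit false

namespace Crest.Agent.R172.P

open Crest.AlgebraR.SpinSaturation Finset

variable {L Z R : ℕ → ℤ} {r j : ℕ}

theorem Close_f_aux (hL : Adj r L Z) (hZ : Dec (r + 1) Z) (hR : Adj (r + 1) Z R)
    (s1 : ∀ k, k < r → 2 * k = j → L (2 * k) < Z (2 * k))
    (s2 : ∀ k, k + 1 < r → (2 * k + 1 = j ∨ 2 * k + 2 = j) → L (2 * k + 2) + L (2 * k + 3) < Z (2 * k + 1) + Z (2 * k + 2))
    (s3 : ∀ i, i + 2 < 2 * (r + 1) → i = j → Z (i + 2) < Z i)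
    (s4 : ∀ k, k < r + 1 → 2 * k + 1 = j → R (2 * k + 1) < Z (2 * k + 1))
    (s5 : ∀ k, k < r + 1 → (2 * k = j ∨ 2 * k + 1 = j) → R (2 * k + 1) + R (2 * k + 2) < Z (2 * k) + Z (2 * k + 1)) :
    Adj r L (up Z j (-1)) ∧ Dec (r + 1) (up Z j (-1)) ∧ Adj (r + 1) (up Z j (-1)) R := by
  refine ⟨⟨fun k hk => ?_, fun k hk => ?_, fun k hk => ?_, fun k hk => ?_⟩, fun i hi => ?_,
    ⟨fun k hk => ?_, fun k hk => ?_, fun k hk => ?_, fun k hk => ?_⟩⟩
  · have h1 := hL.p1 k hk
    have h2 := s1 k hk
    simp only [up]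
    split_ifs <;> omega
  · have h1 := hL.p2 k hk
    simp only [up]
    split_ifs <;> omega
  · have h1 := hL.c k hk
    simp only [up]
    split_ifs <;> omega
  · have h1 := hL.b k hk
    have h2 := s2 k hk
    simp only [up]
    split_ifs <;> omega
  · have h1 := hZ i hi
    have h2 := s3 i hi
    simp only [up]
    split_ifs <;> omega
  · have h1 := hR.p1 k hk
    simp only [up]
    split_ifs <;> omega
  · have h1 := hR.p2 k hk
    have h2 := s4 k hk
    simp only [up]
    split_ifs <;> omega
  · have h1 := hR.c k hk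
    have h2 := s5 k hk
    simp only [up]
    split_ifs <;> omega
  · have h1 := hR.b k hk
    simp only [up]
    split_ifs <;> omega
/-- Lowering at the last minimum.  Write `G k = Z (2k)`, `H k = Z (2k+1)`.  Only the LOWER bounds of `Z j` have to be strict.
`j = 2k < 2r`: `M (2k+1) > M (2k)` gives `G k + H k > L (2k) + L (2k+1)`, hence `G k > L (2k)` (p2), `G k > G (k+1)` (c),
`H (k-1) + G k > L (2k) + L (2k+1)` (Dec); `M (2k+2) > M (2k)` and (c) give `G k + H k > R (2k+1) + R (2k+2)`.
`j = 2k+1`: `M (2k+2) > M (2k+1)` gives `H k + G (k+1) > R (2k+1) + R (2k+2)`, hence `H k > R (2k+1)` (p1), `H k > H (k+1)` (b),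
`G k + H k > ..` (Dec); `M (2k+3) > M (2k+1)` and (b) give the strict (b) on the left.  `j = 2r`: `ht` is the strict (c).
Use `M_odd`, `M_even_succ`; for each field unfold `up`, `split_ifs`, `subst`/`omega`. -/
theorem close_f (hL : Adj r L Z) (hZ : Dec (r + 1) Z) (hR : Adj (r + 1) Z R) (h : IsLp (M L Z R) (2 * r) j)
    (ht : M L Z R j < tot r L Z R) :
    Adj r L (up Z j (-1)) ∧ Dec (r + 1) (up Z j (-1)) ∧ Adj (r + 1) (up Z j (-1)) R := by
  have hle := h.le
  rcases Nat.even_or_odd' j with ⟨k, rfl | rfl⟩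
  · rcases Nat.lt_or_ge k r with hk | hk
    · have m1 := h.lt (2 * k + 1) (by omega) (by omega)
      have m2 := h.lt (2 * k + 2) (by omega) (by omega)
      rw [M_even_succ] at m2
      rw [M_odd] at m1 m2
      have a1 := hL.p2 k hk
      have a2 := hL.c k hk
      refine Close_f_aux hL hZ hR (fun l hl e => ?_) (fun l hl e => ?_) (fun i hi e => ?_) (fun l hl e => ?_)
        (fun l hl e => ?_)
      · obtain rfl : l = k := by omega
        linarith
      · obtain rfl : k = l + 1 := by omega
        have a3 := hZ (2 * l + 1) (by omega)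
        have e1 : 2 * (l + 1) = 2 * l + 2 := by ring
        have e2 : 2 * l + 2 + 1 = 2 * l + 3 := by ring
        have e3 : 2 * l + 1 + 2 = 2 * l + 3 := by ring
        rw [e1, e2] at m1
        rw [e3] at a3
        linarith
      · subst e
        linarith
      · omega
      · obtain rfl : l = k := by omega
        linarith
    · obtain rfl : k = r := by omega
      unfold tot at ht
      refine Close_f_aux hL hZ hR (fun l hl e => ?_) (fun l hl e => ?_) (fun i hi e => ?_) (fun l hl e => ?_)
        (fun l hl e => ?_)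
      · omega
      · omega
      · omega
      · omega
      · obtain rfl : l = k := by omega
        linarith
  · have hk : k < r := by omega
    have m1 := h.lt (2 * k + 2) (by omega) (by omega)
    rw [M_even_succ] at m1
    have a1 := hR.b k (by omega)
    have a2 := hR.p1 (k + 1) (by omega)
    have a3 := hZ (2 * k) (by omega)
    have e1 : 2 * (k + 1) = 2 * k + 2 := by ring
    rw [e1] at a2
    refine Close_f_aux hL hZ hR (fun l hl e => ?_) (fun l hl e => ?_) (fun i hi e => ?_) (fun l hl e => ?_)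
      (fun l hl e => ?_)
    · omega
    · obtain rfl : l = k := by omega
      have m2 := h.lt (2 * (l + 1) + 1) (by omega) (by omega)
      rw [M_odd (l + 1), e1, M_even_succ] at m2
      have e2 : 2 * l + 2 + 1 = 2 * l + 3 := by ring
      rw [e2] at m2
      linarith
    · subst e
      have e3 : 2 * k + 1 + 2 = 2 * k + 3 := by ring
      rw [e3]
      linarith
    · obtain rfl : l = k := by omega
      linarith
    · obtain rfl : l = k := by omega
      linarith

/-- Raising at the first minimum: mirror image of `close_f` (strict UPPER bounds of `Z j` from `M j < M (j-1)`,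
`M j < M (j-2)`; for `j = 0` from `h0`). -/
theorem close_e (hL : Adj r L Z) (hZ : Dec (r + 1) Z) (hR : Adj (r + 1) Z R) (h : IsFp (M L Z R) (2 * r) j)
    (h0 : M L Z R j < 0) :
    Adj r L (up Z j 1) ∧ Dec (r + 1) (up Z j 1) ∧ Adj (r + 1) (up Z j 1) R := by
  have hj := h.le
  have ev : ∀ k, j = 2 * k + 2 → Z (2 * k + 1) + Z (2 * k + 2) < R (2 * k + 1) + R (2 * k + 2) ∧
      Z (2 * k + 1) + Z (2 * k + 2) < L (2 * k) + L (2 * k + 1) := by
    intro k hk
    subst hk
    have h1 := h.lt (2 * k + 1) (by omega)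
    have h2 := h.lt (2 * k) (by omega)
    have e1 := M_even_succ (L := L) (Z := Z) (R := R) k
    have e2 := M_odd (L := L) (Z := Z) (R := R) k
    have h3 := hR.c k (by omega)
    constructor <;> omega
  have od : ∀ k, j = 2 * k + 1 → Z (2 * k) + Z (2 * k + 1) < L (2 * k) + L (2 * k + 1) := by
    intro k hk
    subst hk
    have h1 := h.lt (2 * k) (by omega)
    have e2 := M_odd (L := L) (Z := Z) (R := R) k
    omega
  have od' : ∀ k, j = 2 * k + 3 → Z (2 * k + 2) + Z (2 * k + 3) < R (2 * k + 1) + R (2 * k + 2) ∧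
      Z (2 * k + 3) < Z (2 * k + 1) := by
    intro k hk
    have h4 := od (k + 1) (by omega)
    subst hk
    have h1 := h.lt (2 * k + 1) (by omega)
    have e1 := M_even_succ (L := L) (Z := Z) (R := R) k
    have e2 := M_odd (L := L) (Z := Z) (R := R) (k + 1)
    have h3 := hL.b k (by omega)
    rw [show 2 * (k + 1) + 1 = 2 * k + 3 by ring, show 2 * (k + 1) = 2 * k + 2 by ring] at e2 h4
    constructor <;> omega
  have s1 : ∀ k, k < r → j = 2 * k + 1 → Z (2 * k + 1) < L (2 * k + 1) := fun k hk e => by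
    have := od k e; have := hL.p1 k hk; omega
  have s2 : ∀ k, k < r → (j = 2 * k + 1 ∨ j = 2 * k + 2) → Z (2 * k + 1) + Z (2 * k + 2) < L (2 * k) + L (2 * k + 1) := by
    rintro k hk (e | e)
    · have := od k e; have := hZ (2 * k) (by omega); omega
    · exact (ev k e).2
  have s3 : ∀ i, j = i + 2 → Z (i + 2) < Z i := by
    intro i e
    obtain ⟨k, rfl | rfl⟩ := Nat.even_or_odd' i
    · have := (ev k e).1; have := hR.c k (by omega); omega
    · exact (od' k e).2
  have s4 : ∀ k, j = 2 * k → Z (2 * k) < R (2 * k) := by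
    rintro (_ | k) e
    · subst e
      have : Z 0 - R 0 < 0 := h0
      show Z 0 < R 0
      omega
    · have := (ev k (by omega)).1; have := hR.p2 k (by omega)
      rw [show 2 * (k + 1) = 2 * k + 2 by ring]; omega
  have s5 : ∀ k, (j = 2 * k + 2 ∨ j = 2 * k + 3) → Z (2 * k + 2) + Z (2 * k + 3) < R (2 * k + 1) + R (2 * k + 2) := by
    rintro k (e | e)
    · have := (ev k e).1
      have : Z (2 * k + 3) ≤ Z (2 * k + 1) := hZ (2 * k + 1) (by omega)
      omega
    · exact (od' k e).1
  refine ⟨⟨fun k hk => ?_, fun k hk => ?_, fun k hk => ?_, fun k hk => ?_⟩, fun i hi => ?_,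
    ⟨fun k hk => ?_, fun k hk => ?_, fun k hk => ?_, fun k hk => ?_⟩⟩ <;> simp only [up]
  · have := hL.p1 k hk; split_ifs <;> omega
  · have := hL.p2 k hk; have := s1 k hk; split_ifs <;> omega
  · have := hL.c k hk; have := s2 k hk; split_ifs <;> omega
  · have := hL.b k hk; split_ifs <;> omega
  · have := hZ i hi; have := s3 i; split_ifs <;> omega
  · have := hR.p1 k hk; have := s4 k; split_ifs <;> omega
  · have := hR.p2 k hk; split_ifs <;> omega
  · have := hR.c k hk; split_ifs <;> omega
  · have := hR.b k hk; have := s5 k; split_ifs <;> omega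

end Crest.Agent.R172.P
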