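import Crest.Agent.R172.P.Defs

/-! Row 172, block L2: one column. -/

set_option autoImplicit false

namespace Crest.Agent.R172.P

open Crest.AlgebraR.SpinSaturation Finset

variable {u L Z R : ℕ → ℤ} {r j : ℕ}

theorem isFp_fp (u : ℕ → ℤ) (r : ℕ) : IsFp u r (fp u r) := by
  induction r with
  | zero => exact ⟨le_rfl, fun i hi => by rw [Nat.le_zero.1 hi]; exact le_rfl, fun i hi => absurd hi (Nat.not_lt_zero _)⟩
  | succ r ih =>
    rw [fp]
    split_ifs with h
    · refine ⟨le_rfl, fun i hi => ?_, fun i hi => h.trans_le (ih.min i (by omega))⟩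
      rcases Nat.le_succ_iff.1 hi with hi | rfl
      · exact h.le.trans (ih.min i hi)
      · exact le_rfl
    · refine ⟨ih.le.trans r.le_succ, fun i hi => ?_, ih.lt⟩
      rcases Nat.le_succ_iff.1 hi with hi | rfl
      · exact ih.min i hi
      · exact not_lt.1 h

theorem isLp_lp (u : ℕ → ℤ) (r : ℕ) : IsLp u r (lp u r) := by
  induction r with
  | zero => exact ⟨le_rfl, fun i hi => by rw [Nat.le_zero.1 hi]; exact le_rfl, fun i hi hi' => by omega⟩
  | succ r ih =>
    rw [lp]
    split_ifs with h
    · refine ⟨le_rfl, fun i hi => ?_, fun i hi hi' => by omega⟩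
      rcases Nat.le_succ_iff.1 hi with hi | rfl
      · exact h.trans (ih.min i hi)
      · exact le_rfl
    · refine ⟨ih.le.trans r.le_succ, fun i hi => ?_, fun i hi hi' => ?_⟩
      · rcases Nat.le_succ_iff.1 hi with hi | rfl
        · exact ih.min i hi
        · exact (not_le.1 h).le
      · rcases Nat.le_succ_iff.1 hi' with hi' | rfl
        · exact ih.lt i hi hi'
        · exact not_le.1 h

theorem IsFp.eq (h : IsFp u r j) : fp u r = j := by
  have h' := isFp_fp u r
  rcases lt_trichotomy (fp u r) j with hl | hl | hl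
  · exact absurd (h.lt _ hl) (not_lt.2 (h'.min j h.le))
  · exact hl
  · exact absurd (h'.lt _ hl) (not_lt.2 (h.min _ h'.le))

theorem IsLp.eq (h : IsLp u r j) : lp u r = j := by
  have h' := isLp_lp u r
  rcases lt_trichotomy (lp u r) j with hl | hl | hl
  · exact absurd (h'.lt _ hl h.le) (not_lt.2 (h.min _ h'.le))
  · exact hl
  · exact absurd (h.lt _ hl h'.le) (not_lt.2 (h'.min j h.le))

/-- induction on `i` -/
theorem M_up (d : ℤ) (i : ℕ) :
    M L (up Z j d) R i = M L Z R i + (if i < j then 0 else if i = j then d else 2 * d) := by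
  induction i with
  | zero => simp only [M, up]; split_ifs <;> omega
  | succ i ih => simp only [M, ih, up]; split_ifs <;> omega

theorem tot_up (hj : j ≤ 2 * r) (d : ℤ) : tot r L (up Z j d) R = tot r L Z R + 2 * d := by
  simp only [tot, M_up, up]
  split_ifs <;> omega

theorem IsLp.up (h : IsLp (M L Z R) r j) : IsFp (M L (up Z j (-1)) R) r j := by
  refine ⟨h.le, fun i hi => ?_, fun i hi => ?_⟩
  · have h1 := h.min i hi
    have h2 := fun hj => h.lt i hj hi
    simp only [M_up]
    split_ifs <;> omega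
  · have h1 := h.min i (hi.le.trans h.le)
    simp only [M_up]
    split_ifs <;> omega

theorem IsFp.up (h : IsFp (M L Z R) r j) : IsLp (M L (up Z j 1) R) r j := by
  refine ⟨h.le, fun i hi => ?_, fun i hj hi => ?_⟩
  · have h1 := h.min i hi
    have h2 := h.lt i
    simp only [M_up]
    split_ifs <;> omega
  · have h1 := h.min i hi
    simp only [M_up]
    split_ifs <;> omega

theorem up_up (d : ℤ) : up (up Z j d) j (-d) = Z := by
  funext i
  simp only [up]
  split_ifs <;> omega

theorem M_odd (k : ℕ) : M L Z R (2 * k + 1) = M L Z R (2 * k) + Z (2 * k) + Z (2 * k + 1) - L (2 * k) - L (2 * k + 1) := by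
  rw [M, T, if_pos (by omega), sub_sub]

theorem M_even_succ (k : ℕ) :
    M L Z R (2 * k + 2) = M L Z R (2 * k + 1) + Z (2 * k + 1) + Z (2 * k + 2) - R (2 * k + 1) - R (2 * k + 2) := by
  rw [M, T, if_neg (by omega), sub_sub]

/-- closed form (induction on `k`, `sum_range_succ`) -/
theorem M_even (k : ℕ) : M L Z R (2 * k) = ∑ j ∈ range (2 * k), Z j + ∑ j ∈ range (2 * k + 1), Z j -
    ∑ j ∈ range (2 * k), L j - ∑ j ∈ range (2 * k + 1), R j := by
  induction k with
  | zero => simp [M]
  | succ k ih =>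
    rw [show 2 * (k + 1) = 2 * k + 2 by ring, M_even_succ, M_odd, ih]
    simp only [sum_range_succ]
    ring

theorem tot_eq : tot r L Z R = ∑ j ∈ range (2 * r + 1), Z j + ∑ j ∈ range (2 * r + 2), Z j -
    ∑ j ∈ range (2 * r), L j - ∑ j ∈ range (2 * r + 3), R j := by
  rw [tot, M_even]
  simp only [sum_range_succ]
  ring

/-- `M i` only depends on the entries at the positions `≤ i` -/
theorem M_congr {L' Z' R' : ℕ → ℤ} {i : ℕ} (hL : ∀ l, l ≤ i → L l = L' l) (hZ : ∀ l, l ≤ i → Z l = Z' l)
    (hR : ∀ l, l ≤ i → R l = R' l) : M L Z R i = M L' Z' R' i := by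
  induction i with
  | zero => rw [M, M, hZ 0 le_rfl, hR 0 le_rfl]
  | succ i ih =>
    rw [M, M, T, T, ih (fun l h => hL l (by omega)) (fun l h => hZ l (by omega)) (fun l h => hR l (by omega)),
      hZ i (by omega), hZ _ le_rfl, hL i (by omega), hL _ le_rfl, hR i (by omega), hR _ le_rfl]

end Crest.Agent.R172.P
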