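import Crest.Agent.R172.Cry

/-! Row 172, block L2 (architect helper16): patterns = column differences of hives.  FROZEN.
Column `t` has the entries `Z t j`, `j < 2 t` (`Z t (2k) = y (k+1) t - x k t`, `Z t (2k+1) = x (k+1) t - y (k+1) t`),
`s e k` is the increment of the fork values; all entries are shifted by `δ / 2`, `δ` = last doubled coordinate of `μ`.
The node `i` acts on column `rw i + 1` by changing ONE entry. -/

set_option autoImplicit false

namespace Crest.Agent.R172.P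

open Crest.AlgebraR.SpinSaturation Finset

/-! ### one column `Z` between a left column `L` and a right column `R` -/

/-- neighbour sums -/
def T (L R : ℕ → ℤ) (j : ℕ) : ℤ := if j % 2 = 0 then L j + L (j + 1) else R j + R (j + 1)

/-- the local minima of the bracket path -/
def M (L Z R : ℕ → ℤ) : ℕ → ℤ
  | 0 => Z 0 - R 0
  | j + 1 => M L Z R j + Z j + Z (j + 1) - T L R j

/-- the end point of the bracket path of column `r + 1` -/
def tot (r : ℕ) (L Z R : ℕ → ℤ) : ℤ :=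
  M L Z R (2 * r) + Z (2 * r) + Z (2 * r + 1) - R (2 * r + 1) - R (2 * r + 2)

/-- first minimum on `[0, r]` -/
def fp (u : ℕ → ℤ) : ℕ → ℕ
  | 0 => 0
  | r + 1 => if u (r + 1) < u (fp u r) then r + 1 else fp u r

/-- last minimum on `[0, r]` -/
def lp (u : ℕ → ℤ) : ℕ → ℕ
  | 0 => 0
  | r + 1 => if u (r + 1) ≤ u (lp u r) then r + 1 else lp u r

structure IsFp (u : ℕ → ℤ) (r j : ℕ) : Prop where
  le : j ≤ r
  min : ∀ i, i ≤ r → u j ≤ u i
  lt : ∀ i, i < j → u j < u i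

structure IsLp (u : ℕ → ℤ) (r j : ℕ) : Prop where
  le : j ≤ r
  min : ∀ i, i ≤ r → u j ≤ u i
  lt : ∀ i, j < i → i ≤ r → u j < u i

/-- inequalities between column `t` (`A`) and column `t + 1` (`B`): P1, P2, C, B -/
structure Adj (t : ℕ) (A B : ℕ → ℤ) : Prop where
  p1 : ∀ k, k < t → A (2 * k) ≤ B (2 * k)
  p2 : ∀ k, k < t → B (2 * k + 1) ≤ A (2 * k + 1)
  c : ∀ k, k < t → B (2 * k + 1) + B (2 * k + 2) ≤ A (2 * k) + A (2 * k + 1)
  b : ∀ k, k + 1 < t → A (2 * k + 2) + A (2 * k + 3) ≤ B (2 * k + 1) + B (2 * k + 2)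

/-- inequalities inside column `t`: A, D -/
def Dec (t : ℕ) (Z : ℕ → ℤ) : Prop := ∀ j, j + 2 < 2 * t → Z (j + 2) ≤ Z j

/-- add `d` to the entry `j` -/
def up (Z : ℕ → ℤ) (j : ℕ) (d : ℤ) : ℕ → ℤ := fun i => if i = j then Z i + d else Z i

/-! ### patterns -/

@[ext] structure Pat where
  Z : ℕ → ℕ → ℤ
  s : Bool → ℕ → ℤ

/-- the fork column of sign `e` -/
def Pat.S (P : Pat) (e : Bool) : ℕ → ℤ := fun j => P.s e (j / 2)

/-- entries outside the triangle vanish -/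
structure Junk (m : ℕ) (P : Pat) : Prop where
  Z : ∀ t j, (m < t ∨ 2 * t ≤ j) → P.Z t j = 0
  s : ∀ e k, m < k → P.s e k = 0

/-- the fork condition `x k m = s⁺ k + s⁻ k` -/
def Sum (m : ℕ) (P : Pat) : Prop := ∀ k, k < m → P.s true k + P.s false k = P.Z m (2 * k) + P.Z m (2 * k + 1)

/-- patterns of highest weight `(c 0 + δ/2, …, c (m-1) + δ/2, δ/2)` -/
structure IsPat (m : ℕ) (c : ℕ → ℤ) (δ : ℤ) (P : Pat) : Prop where
  junk : Junk m P
  sum : Sum m P
  adj : ∀ t, t + 1 ≤ m → Adj t (P.Z t) (P.Z (t + 1))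
  dec : ∀ t, t ≤ m → Dec t (P.Z t)
  fork : ∀ e, Adj m (P.Z m) (P.S e)
  bd : ∀ t, t < m → P.Z (t + 1) (2 * t + 1) = c t
  top : ∀ e, P.s e m = if e then 0 else -δ

variable {m : ℕ}

/-- the node `i` acts on column `rw i + 1` -/
def rw (i : Fin (m + 1)) : ℕ := min (i : ℕ) (m - 1)

/-- the sign of the node -/
def sn (i : Fin (m + 1)) : Bool := decide ((i : ℕ) < m)

def Lc (P : Pat) (i : Fin (m + 1)) : ℕ → ℤ := P.Z (rw i)
def Zc (P : Pat) (i : Fin (m + 1)) : ℕ → ℤ := P.Z (rw i + 1)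
def Rc (P : Pat) (i : Fin (m + 1)) : ℕ → ℤ := if rw i + 1 < m then P.Z (rw i + 2) else P.S (sn i)

/-- bracket path of the node `i` -/
def Mi (P : Pat) (i : Fin (m + 1)) : ℕ → ℤ := M (Lc P i) (Zc P i) (Rc P i)

def toti (P : Pat) (i : Fin (m + 1)) : ℤ := tot (rw i) (Lc P i) (Zc P i) (Rc P i)

def epsZ (P : Pat) (i : Fin (m + 1)) : ℤ := -Mi P i (fp (Mi P i) (2 * rw i))

def phiZ (P : Pat) (i : Fin (m + 1)) : ℤ := toti P i + epsZ P i

/-- add `d` to the entry `j` of the column of the node `i` -/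
def mv (P : Pat) (i : Fin (m + 1)) (j : ℕ) (d : ℤ) : Pat where
  Z := fun t => if t = rw i + 1 then up (P.Z t) j d else P.Z t
  s := fun e => if rw i + 1 = m ∧ e = !sn i then up (P.s e) (j / 2) d else P.s e

def F (i : Fin (m + 1)) (P : Pat) : Pat := mv P i (lp (Mi P i) (2 * rw i)) (-1)

def E (i : Fin (m + 1)) (P : Pat) : Pat := mv P i (fp (Mi P i) (2 * rw i)) 1

/-- doubled weight -/
def wtP (m : ℕ) (δ : ℤ) (P : Pat) : Fin (m + 1) → ℤ := fun k =>
  if (k : ℕ) < m then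
    2 * (∑ j ∈ range (2 * k + 1), P.Z (k + 1) j - ∑ j ∈ range (2 * k), P.Z k j) + δ
  else δ + 2 * ∑ l ∈ range m, (P.s true l - P.s false l)

/-- the highest pattern -/
def P0 (m : ℕ) (c : ℕ → ℤ) (δ : ℤ) : Pat where
  Z := fun t j => if t ≤ m ∧ j < 2 * t then c (j / 2) else 0
  s := fun e k => if k < m then c k else if k = m then (if e then 0 else -δ) else 0

/-- `δ` -/
def dl (b : Fin (m + 1) → ℤ) : ℤ := b (Fin.last m)

/-- `c` -/
def cc (b : Fin (m + 1) → ℤ) (k : ℕ) : ℤ := if h : k < m + 1 then (b ⟨k, h⟩ - dl b) / 2 else 0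

/-- partial sums of `λ` -/
def Lam (a : Fin (m + 1) → ℤ) (t : ℕ) : ℚ := ∑ i ∈ range t, wt a (i + 1)

/-- the hive of a pattern -/
def toArr (a : Fin (m + 1) → ℤ) (δ : ℤ) (P : Pat) : Arr where
  x := fun k t => Lam a t + ∑ j ∈ range (2 * k), ((P.Z t j : ℚ) + δ / 2)
  y := fun k t => Lam a t + ∑ j ∈ range (2 * k - 1), ((P.Z t j : ℚ) + δ / 2)
  s := fun e k => (Lam a m + sg e * wt a (m + 1)) / 2 + ∑ l ∈ range k, ((P.s e l : ℚ) + δ / 2)

/-- two arrays agree on the triangle -/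
structure Agree (m : ℕ) (h h' : Arr) : Prop where
  x : ∀ k t, k ≤ t → t ≤ m → h.x k t = h'.x k t
  y : ∀ k t, k + 1 ≤ t → t ≤ m → h.y (k + 1) t = h'.y (k + 1) t
  s : ∀ e k, k ≤ m + 1 → h.s e k = h'.s e k

end Crest.Agent.R172.P
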