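import Crest.Agent.R172.P.Close

/-! Row 172, block L2: the operators on patterns. -/

set_option autoImplicit false

namespace Crest.Agent.R172.P

open Crest.AlgebraR.SpinSaturation Finset

variable {m : ℕ} {c : ℕ → ℤ} {δ : ℤ} {P : Pat} {i : Fin (m + 1)} {j : ℕ}

theorem rw_lt (hm : 1 ≤ m) (i : Fin (m + 1)) : rw i + 1 ≤ m := by
  unfold rw
  omega

theorem Lc_mv (d : ℤ) : Lc (mv P i j d) i = Lc P i := by
  simp [Lc, mv]

theorem Zc_mv (d : ℤ) : Zc (mv P i j d) i = up (Zc P i) j d := by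
  simp [Zc, mv]

theorem Rc_mv (d : ℤ) : Rc (mv P i j d) i = Rc P i := by
  unfold Rc
  split_ifs
  · simp [mv]
  · funext l
    simp [mv, Pat.S]

theorem ops_up_up (Z : ℕ → ℤ) (j : ℕ) (d : ℤ) : up (up Z j d) j (-d) = Z := by
  funext l
  simp only [up]
  split_ifs <;> simp

theorem mv_mv (d : ℤ) : mv (mv P i j d) i j (-d) = P := by
  refine Pat.ext (funext fun t => ?_) (funext fun e => ?_)
  · simp only [mv]
    split_ifs
    · exact ops_up_up _ _ _
    · rfl
  · simp only [mv]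
    split_ifs
    · exact ops_up_up _ _ _
    · rfl

theorem IsPat.col (hm : 1 ≤ m) (h : IsPat m c δ P) (i : Fin (m + 1)) :
    Adj (rw i) (Lc P i) (Zc P i) ∧ Dec (rw i + 1) (Zc P i) ∧ Adj (rw i + 1) (Zc P i) (Rc P i) := by
  have h1 := rw_lt hm i
  refine ⟨h.adj _ h1, h.dec _ h1, ?_⟩
  unfold Rc Zc
  split_ifs with h2
  · exact h.adj _ h2
  · rw [show rw i + 1 = m by omega]
    exact h.fork _

theorem ops_S0 (P : Pat) (e : Bool) (k : ℕ) : P.S e (2 * k) = P.s e k := by
  simp [Pat.S]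

theorem ops_S1 (P : Pat) (e : Bool) (k : ℕ) : P.S e (2 * k + 1) = P.s e k := by
  rw [Pat.S, show (2 * k + 1) / 2 = k by omega]

theorem ops_S2 (P : Pat) (e : Bool) (k : ℕ) : P.S e (2 * k + 2) = P.s e (k + 1) := by
  rw [Pat.S, show (2 * k + 2) / 2 = k + 1 by omega]

theorem ops_sum (hs : Sum m P) (e : Bool) {k : ℕ} (hk : k < m) : P.s e k + P.s (!e) k = P.Z m (2 * k) + P.Z m (2 * k + 1) := by
  cases e
  · rw [← hs k hk, add_comm]; rfl
  · exact hs k hk

/-- the two fork columns carry the same inequalities up to the last one -/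
theorem fork_flip (hs : Sum m P) {e : Bool} (h : Adj m (P.Z m) (P.S e))
    (hl : ∀ k, k + 1 = m → P.s (!e) m ≤ P.s e k) : Adj m (P.Z m) (P.S (!e)) := by
  refine ⟨fun k hk => ?_, fun k hk => ?_, fun k hk => ?_, fun k hk => ?_⟩
  · have h1 := h.p2 k hk
    have h2 := ops_sum hs e hk
    rw [ops_S1] at h1
    rw [ops_S0]
    omega
  · have h1 := h.p1 k hk
    have h2 := ops_sum hs e hk
    rw [ops_S0] at h1
    rw [ops_S1]
    omega
  · have h2 := ops_sum hs e hk
    rw [ops_S1, ops_S2]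
    rcases Nat.lt_or_ge (k + 1) m with h3 | h3
    · have h1 := h.b k h3
      have h4 := ops_sum hs e h3
      rw [ops_S1, ops_S2] at h1
      rw [show 2 * (k + 1) = 2 * k + 2 by ring, show 2 * k + 2 + 1 = 2 * k + 3 by ring] at h4
      omega
    · have h4 : k + 1 = m := by omega
      have h1 := hl k h4
      rw [h4]
      omega
  · have h1 := h.c k (by omega)
    have h2 := ops_sum hs e (k := k) (by omega)
    have h4 := ops_sum hs e hk
    rw [ops_S1, ops_S2] at h1 ⊢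
    rw [show 2 * (k + 1) = 2 * k + 2 by ring, show 2 * k + 2 + 1 = 2 * k + 3 by ring] at h4
    omega

/-- Case `rw i + 1 < m`: only column `rw i + 1` changes.  Case `rw i + 1 = m`: `s (sn i)` is unchanged, `Sum` is kept, use
`fork_flip` (its last hypothesis is `(h.fork (!sn i)).c` at `k = m - 1` with `h.sum`; `j / 2 < m`). -/
theorem isPat_mv (hm : 1 ≤ m) (h : IsPat m c δ P) (hj : j ≤ 2 * rw i) {d : ℤ}
    (h1 : Adj (rw i) (Lc P i) (up (Zc P i) j d)) (h2 : Dec (rw i + 1) (up (Zc P i) j d))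
    (h3 : Adj (rw i + 1) (up (Zc P i) j d) (Rc P i)) : IsPat m c δ (mv P i j d) := by
  have hr := rw_lt hm i
  have hZ : ∀ t, t ≠ rw i + 1 → (mv P i j d).Z t = P.Z t := fun t ht => if_neg ht
  have hZ' : (mv P i j d).Z (rw i + 1) = up (Zc P i) j d := if_pos rfl
  have hZj : ∀ t l, l ≠ j → (mv P i j d).Z t l = P.Z t l := fun t l hl => by
    simp only [mv]
    split_ifs
    · exact if_neg hl
    · rfl
  have hs : ∀ e k, k ≠ j / 2 → (mv P i j d).s e k = P.s e k := fun e k hk => by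
    simp only [mv]
    split_ifs
    · exact if_neg hk
    · rfl
  have hs1 : (mv P i j d).s (sn i) = P.s (sn i) := if_neg (by simp)
  have hs2 : rw i + 1 ≠ m → ∀ e, (mv P i j d).s e = P.s e := fun h0 e => if_neg fun h' => h0 h'.1
  have hsum : Sum m (mv P i j d) := by
    intro k hk
    have h4 := ops_sum h.sum (sn i) hk
    by_cases h0 : rw i + 1 = m
    · have h5 : (mv P i j d).s true k + (mv P i j d).s false k = P.s (sn i) k + up (P.s (!sn i)) (j / 2) d k := by
        have h6 : (mv P i j d).s (!sn i) = up (P.s (!sn i)) (j / 2) d := if_pos ⟨h0, rfl⟩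
        rw [← hs1, ← h6]
        cases sn i
        · exact add_comm _ _
        · rfl
      have h6 : (mv P i j d).Z m = up (P.Z m) j d := if_pos h0.symm
      rw [h5, h6]
      simp only [up]
      split_ifs <;> omega
    · rw [hs2 h0, hs2 h0, hZ m (Ne.symm h0)]
      exact h.sum k hk
  refine ⟨⟨fun t l hl => ?_, fun e k hk => ?_⟩, hsum, fun t ht => ?_, fun t ht => ?_, fun e => ?_, fun t ht => ?_, fun e => ?_⟩
  · by_cases h0 : t = rw i + 1
    · rw [hZj t l (by omega)]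
      exact h.junk.Z t l hl
    · rw [hZ t h0]
      exact h.junk.Z t l hl
  · rw [hs e k (by omega)]
    exact h.junk.s e k hk
  · by_cases h0 : t = rw i
    · rw [h0, hZ', hZ _ (by omega)]
      exact h1
    by_cases h0' : t = rw i + 1
    · rw [h0', hZ', hZ _ (by omega)]
      rwa [Rc, if_pos (by omega)] at h3
    rw [hZ _ h0', hZ _ (by omega)]
    exact h.adj t ht
  · by_cases h0 : t = rw i + 1
    · rw [h0, hZ']
      exact h2
    · rw [hZ _ h0]
      exact h.dec t ht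
  · by_cases h0 : rw i + 1 = m
    · have h4 : Adj m ((mv P i j d).Z m) ((mv P i j d).S (sn i)) := by
        rw [Rc, if_neg (by omega), ← hZ', h0] at h3
        have h5 : (mv P i j d).S (sn i) = P.S (sn i) := funext fun l => congrFun hs1 _
        rwa [h5]
      by_cases he : e = sn i
      · rwa [he]
      · rw [Bool.eq_not_iff.2 he]
        refine fork_flip hsum h4 fun k hk => ?_
        have h5 := (h.fork (!sn i)).c k (by omega)
        have h6 := ops_sum h.sum (sn i) (k := k) (by omega)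
        rw [ops_S1, ops_S2, hk] at h5
        rw [hs _ m (by omega), hs1]
        omega
    · have h5 : (mv P i j d).S e = P.S e := funext fun l => congrFun (hs2 h0 e) _
      rw [h5, hZ m (Ne.symm h0)]
      exact h.fork e
  · by_cases h0 : t = rw i
    · rw [hZj _ _ (by omega)]
      exact h.bd t ht
    · rw [hZ _ (by omega)]
      exact h.bd t ht
  · rw [hs e m (by omega)]
    exact h.top e

theorem Ops_Mi_mv (d : ℤ) : Mi (mv P i j d) i = M (Lc P i) (up (Zc P i) j d) (Rc P i) := by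
  unfold Mi
  rw [Lc_mv, Zc_mv, Rc_mv]

theorem Ops_toti_mv (d : ℤ) : toti (mv P i j d) i = tot (rw i) (Lc P i) (up (Zc P i) j d) (Rc P i) := by
  unfold toti
  rw [Lc_mv, Zc_mv, Rc_mv]

theorem Ops_fp_F : fp (Mi (F i P) i) (2 * rw i) = lp (Mi P i) (2 * rw i) := by
  unfold F
  rw [Ops_Mi_mv]
  exact (IsLp.up (isLp_lp (Mi P i) (2 * rw i))).eq

theorem Ops_lp_E : lp (Mi (E i P) i) (2 * rw i) = fp (Mi P i) (2 * rw i) := by
  unfold E
  rw [Ops_Mi_mv]
  exact (IsFp.up (isFp_fp (Mi P i) (2 * rw i))).eq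

theorem epsZ_le_iff {x : ℤ} : epsZ P i ≤ x ↔ ∀ l, l ≤ 2 * rw i → 0 ≤ Mi P i l + x := by
  have h := isFp_fp (Mi P i) (2 * rw i)
  unfold epsZ
  constructor
  · intro hx l hl
    have := h.min l hl
    linarith
  · intro H
    have := H _ h.le
    linarith

theorem epsZ_eq_lp : epsZ P i = -Mi P i (lp (Mi P i) (2 * rw i)) := by
  have h := isFp_fp (Mi P i) (2 * rw i)
  have h' := isLp_lp (Mi P i) (2 * rw i)
  have h1 := h.min _ h'.le
  have h2 := h'.min _ h.le
  unfold epsZ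
  linarith

/-- `M 0 ≤ 0` by (p1) -/
theorem epsZ_nonneg (hm : 1 ≤ m) (h : IsPat m c δ P) : 0 ≤ epsZ P i := by
  have h0 := (isFp_fp (Mi P i) (2 * rw i)).min 0 (Nat.zero_le _)
  have h1 := (h.col hm i).2.2.p1 0 (Nat.succ_pos _)
  have h2 : Mi P i 0 = Zc P i 0 - Rc P i 0 := rfl
  simp only [Nat.mul_zero] at h1
  unfold epsZ
  linarith

/-- `M (2 r) ≤ tot` by (c) -/
theorem phiZ_nonneg (hm : 1 ≤ m) (h : IsPat m c δ P) : 0 ≤ phiZ P i := by
  have h0 := (isFp_fp (Mi P i) (2 * rw i)).min (2 * rw i) le_rfl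
  have h1 := (h.col hm i).2.2.c (rw i) (Nat.lt_succ_self _)
  have h2 : toti P i = Mi P i (2 * rw i) + Zc P i (2 * rw i) + Zc P i (2 * rw i + 1) - Rc P i (2 * rw i + 1) -
      Rc P i (2 * rw i + 2) := rfl
  unfold phiZ epsZ
  linarith

theorem isPat_F (hm : 1 ≤ m) (h : IsPat m c δ P) (hp : 0 < phiZ P i) : IsPat m c δ (F i P) := by
  obtain ⟨h1, h2, h3⟩ := h.col hm i
  have hl := isLp_lp (Mi P i) (2 * rw i)
  have ht : Mi P i (lp (Mi P i) (2 * rw i)) < toti P i := by
    unfold phiZ at hp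
    rw [epsZ_eq_lp] at hp
    linarith
  obtain ⟨k1, k2, k3⟩ := close_f h1 h2 h3 hl ht
  exact isPat_mv hm h hl.le k1 k2 k3

theorem isPat_E (hm : 1 ≤ m) (h : IsPat m c δ P) (hp : 0 < epsZ P i) : IsPat m c δ (E i P) := by
  obtain ⟨h1, h2, h3⟩ := h.col hm i
  have hl := isFp_fp (Mi P i) (2 * rw i)
  have ht : Mi P i (fp (Mi P i) (2 * rw i)) < 0 := by
    unfold epsZ at hp
    linarith
  obtain ⟨k1, k2, k3⟩ := close_e h1 h2 h3 hl ht
  exact isPat_mv hm h hl.le k1 k2 k3

theorem epsZ_F : epsZ (F i P) i = epsZ P i + 1 := by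
  rw [epsZ_eq_lp (P := P)]
  unfold epsZ
  rw [Ops_fp_F]
  unfold F
  rw [Ops_Mi_mv, M_up, if_neg (lt_irrefl _), if_pos rfl]
  unfold Mi
  ring

theorem phiZ_E : phiZ (E i P) i = phiZ P i + 1 := by
  have hl := isFp_fp (Mi P i) (2 * rw i)
  unfold phiZ
  rw [epsZ_eq_lp (P := E i P), Ops_lp_E]
  unfold E
  rw [Ops_Mi_mv, Ops_toti_mv, M_up, if_neg (lt_irrefl _), if_pos rfl, tot_up hl.le]
  unfold epsZ toti Mi
  ring

theorem E_F : E i (F i P) = P := by
  unfold E
  rw [Ops_fp_F]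
  unfold F
  have := mv_mv (P := P) (i := i) (j := lp (Mi P i) (2 * rw i)) (-1)
  rwa [neg_neg] at this

theorem F_E : F i (E i P) = P := by
  unfold F
  rw [Ops_lp_E]
  unfold E
  exact mv_mv (P := P) (i := i) (j := fp (Mi P i) (2 * rw i)) 1

end Crest.Agent.R172.P
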