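import Crest.Agent.R172.P.Ops

/-! Row 172, block L2: finiteness and the highest pattern. -/

set_option autoImplicit false

namespace Crest.Agent.R172.P

open Crest.AlgebraR.SpinSaturation Finset

variable {m : ℕ} {c : ℕ → ℤ} {δ : ℤ} {P : Pat}

/-- All entries are bounded.  Odd entries: `c t ≤ Z (t+1) (2k+1) ≤ c k` (Dec, p2).  Even entries: `Z t (2k) ≤ Z m (2k) ≤ s e k ≤
Z m (2k+1)` (p1, fork); `Z (t+1) (2k) ≥ Z (t+1) (2t) ≥ -δ - c t` by downward induction on `t` from (c) at `k = t`
(at the top: `sum` and both fork inequalities (c) at `k = m - 1`).  One may also bound by any constant depending on `c, δ`. -/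
theorem exists_bound (m : ℕ) (c : ℕ → ℤ) (δ : ℤ) :
    ∃ N : ℤ, ∀ P, IsPat m c δ P → (∀ t j, |P.Z t j| ≤ N) ∧ ∀ e k, |P.s e k| ≤ N := by
  refine ⟨∑ k ∈ range m, |c k| + |δ|, fun P h => ?_⟩
  have hN : ∀ k, k < m → |c k| ≤ ∑ k ∈ range m, |c k| := fun k hk =>
    single_le_sum (f := fun k => |c k|) (fun _ _ => abs_nonneg _) (mem_range.2 hk)
  have h0 : 0 ≤ ∑ k ∈ range m, |c k| := sum_nonneg fun _ _ => abs_nonneg _
  generalize ∑ k ∈ range m, |c k| = N at hN h0
  have hN' : ∀ k, k < m → -N ≤ c k ∧ c k ≤ N := fun k hk => abs_le.1 (hN k hk)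
  have hδ := abs_le.1 (le_refl |δ|)
  have dec : ∀ t, t ≤ m → ∀ j d, j + 2 * d < 2 * t → P.Z t (j + 2 * d) ≤ P.Z t j := fun t ht j d => by
    induction d with
    | zero => exact fun _ => le_rfl
    | succ d ih => exact fun hd => (h.dec t ht (j + 2 * d) (by omega)).trans (ih (by omega))
  have o1 : ∀ k d, k + 1 + d ≤ m → P.Z (k + 1 + d) (2 * k + 1) ≤ c k := fun k d => by
    induction d with
    | zero => exact fun hd => (h.bd k (by omega)).le
    | succ d ih => exact fun hd => ((h.adj (k + 1 + d) hd).p2 k (by omega)).trans (ih (by omega))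
  have o2 : ∀ k t, k ≤ t → t < m → c t ≤ P.Z (t + 1) (2 * k + 1) := fun k t hk ht => by
    have := dec (t + 1) ht (2 * k + 1) (t - k) (by omega)
    rwa [show 2 * k + 1 + 2 * (t - k) = 2 * t + 1 by omega, h.bd t ht] at this
  have s1 : ∀ e k, k < m → P.Z m (2 * k) ≤ P.s e k ∧ P.s e k ≤ P.Z m (2 * k + 1) := fun e k hk => by
    have a1 := (h.fork e).p1 k hk
    have a2 := (h.fork e).p2 k hk
    simp only [Pat.S, show 2 * k / 2 = k by omega, show (2 * k + 1) / 2 = k by omega] at a1 a2
    exact ⟨a1, a2⟩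
  have e1 : ∀ k d t, k < t → t + d = m → P.Z t (2 * k) ≤ P.Z m (2 * k) := fun k d => by
    induction d with
    | zero => exact fun t _ e => by rw [← e]; exact le_rfl
    | succ d ih => exact fun t hk e => ((h.adj t (by omega)).p1 k hk).trans (ih (t + 1) (by omega) (by omega))
  have e2 : ∀ d t, t + 1 + d = m → -δ - c t ≤ P.Z (t + 1) (2 * t) := fun d => by
    induction d with
    | zero =>
      intro t e
      obtain rfl : m = t + 1 := e.symm
      have a1 := (h.fork true).c t (by omega)
      have a2 := (h.fork false).c t (by omega)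
      have a3 := h.sum t (by omega)
      have a4 := h.top true
      have a5 := h.top false
      have a6 := h.bd t (by omega)
      simp only [Pat.S, show (2 * t + 1) / 2 = t by omega, show (2 * t + 2) / 2 = t + 1 by omega] at a1 a2
      simp at a4 a5
      omega
    | succ d ih =>
      intro t e
      have a1 := (h.adj (t + 1) (by omega)).c t (by omega)
      have a2 := ih (t + 1) (by omega)
      have a3 := o2 t (t + 1) (by omega) (by omega)
      have a6 := h.bd t (by omega)
      rw [show 2 * (t + 1) = 2 * t + 2 by ring] at a2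
      omega
  have odd : ∀ k t, k ≤ t → t < m → -N ≤ P.Z (t + 1) (2 * k + 1) ∧ P.Z (t + 1) (2 * k + 1) ≤ N := fun k t hk ht => by
    have a1 := o1 k (t - k) (by omega)
    rw [show k + 1 + (t - k) = t + 1 by omega] at a1
    exact ⟨(hN' t ht).1.trans (o2 k t hk ht), a1.trans (hN' k (by omega)).2⟩
  have even : ∀ k t, k ≤ t → t < m → -(N + |δ|) ≤ P.Z (t + 1) (2 * k) ∧ P.Z (t + 1) (2 * k) ≤ N := fun k t hk ht => by
    have a1 := dec (t + 1) ht (2 * k) (t - k) (by omega)
    rw [show 2 * k + 2 * (t - k) = 2 * t by omega] at a1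
    have a2 := e2 (m - t - 1) t (by omega)
    have a3 := e1 k (m - t - 1) (t + 1) (by omega) (by omega)
    have a4 := s1 true k (by omega)
    have a5 := odd k (m - 1) (by omega) (by omega)
    rw [show m - 1 + 1 = m by omega] at a5
    have a6 := hN' t ht
    omega
  refine ⟨fun t j => ?_, fun e k => ?_⟩
  · by_cases hj : m < t ∨ 2 * t ≤ j
    · rw [h.junk.Z t j hj, abs_zero]
      omega
    · obtain ⟨t, rfl⟩ : ∃ t', t = t' + 1 := ⟨t - 1, by omega⟩
      rw [abs_le]
      obtain ⟨k, rfl | rfl⟩ := Nat.even_or_odd' j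
      · have := even k t (by omega) (by omega)
        omega
      · have := odd k t (by omega) (by omega)
        omega
  · rcases lt_trichotomy k m with hk | rfl | hk
    · have a1 := s1 e k hk
      have a2 := odd k (m - 1) (by omega) (by omega)
      have a3 := even k (m - 1) (by omega) (by omega)
      rw [show m - 1 + 1 = m by omega] at a2 a3
      rw [abs_le]
      omega
    · rw [h.top e, abs_le]
      split_ifs <;> omega
    · rw [h.junk.s e k hk, abs_zero]
      omega

/-- `exists_bound` + `junk`: inject into `(Fin (m+1) → Fin (2*m) → Icc (-N) N) × (Bool → Fin (m+1) → Icc (-N) N)` -/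
theorem finite_pat (m : ℕ) (c : ℕ → ℤ) (δ : ℤ) : Finite {P : Pat // IsPat m c δ P} := by
  obtain ⟨N, hN⟩ := exists_bound m c δ
  refine Finite.of_injective (β := (Fin (m + 1) → Fin (2 * m) → Set.Icc (-N) N) × (Bool → Fin (m + 1) → Set.Icc (-N) N))
    (fun P => (fun t j => ⟨P.1.Z t j, abs_le.1 ((hN _ P.2).1 t j)⟩, fun e k => ⟨P.1.s e k, abs_le.1 ((hN _ P.2).2 e k)⟩))
    fun P Q h => Subtype.ext (Pat.ext (funext₂ fun t j => ?_) (funext₂ fun e k => ?_))
  · by_cases hj : m < t ∨ 2 * t ≤ j
    · rw [P.2.junk.Z t j hj, Q.2.junk.Z t j hj]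
    · exact congrArg Subtype.val (congrFun (congrFun (congrArg Prod.fst h) ⟨t, by omega⟩) ⟨j, by omega⟩)
  · by_cases hk : m < k
    · rw [P.2.junk.s e k hk, Q.2.junk.s e k hk]
    · exact congrArg Subtype.val (congrFun (congrFun (congrArg Prod.snd h) e) ⟨k, by omega⟩)

theorem top_P0_Z {t j : ℕ} (ht : t ≤ m) (hj : j < 2 * t) : (P0 m c δ).Z t j = c (j / 2) := by
  simp only [P0]
  rw [if_pos ⟨ht, hj⟩]

theorem top_P0_s {e : Bool} {k : ℕ} (hk : k < m) : (P0 m c δ).s e k = c k := by
  simp only [P0]
  rw [if_pos hk]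

theorem top_P0_s_top (e : Bool) : (P0 m c δ).s e m = if e then 0 else -δ := by
  simp only [P0]
  rw [if_neg (lt_irrefl m), if_pos trivial]

theorem top_P0_S {e : Bool} {j : ℕ} (hj : j < 2 * m) : (P0 m c δ).S e j = c (j / 2) := by
  simp only [Pat.S]
  exact top_P0_s (by omega)

theorem top_fp_le (u : ℕ → ℤ) (r : ℕ) : fp u r ≤ r := by
  induction r with
  | zero => simp [fp]
  | succ r ih =>
    simp only [fp]
    split_ifs <;> omega

theorem isPat_P0 (h1 : ∀ k, k + 1 < m → c (k + 1) ≤ c k) (h2 : ∀ k, k + 1 = m → 0 ≤ c k ∧ -δ ≤ c k) :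
    IsPat m c δ (P0 m c δ) := by
  have e0 : ∀ k : ℕ, 2 * k / 2 = k := fun k => by omega
  have e1 : ∀ k : ℕ, (2 * k + 1) / 2 = k := fun k => by omega
  have e2 : ∀ k : ℕ, (2 * k + 2) / 2 = k + 1 := fun k => by omega
  have e3 : ∀ k : ℕ, (2 * k + 3) / 2 = k + 1 := fun k => by omega
  refine ⟨⟨?_, ?_⟩, ?_, ?_, ?_, ?_, ?_, top_P0_s_top⟩
  · intro t j h
    simp only [P0]
    rw [if_neg (by omega)]
  · intro e k h
    simp only [P0]
    rw [if_neg (by omega), if_neg (by omega)]
  · intro k hk
    rw [top_P0_s hk, top_P0_s hk, top_P0_Z le_rfl (by omega), top_P0_Z le_rfl (by omega), e0, e1]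
  · intro t ht
    refine ⟨fun k hk => ?_, fun k hk => ?_, fun k hk => ?_, fun k hk => ?_⟩
    · rw [top_P0_Z (by omega) (by omega), top_P0_Z ht (by omega)]
    · rw [top_P0_Z ht (by omega), top_P0_Z (by omega) (by omega)]
    · rw [top_P0_Z ht (by omega), top_P0_Z ht (by omega), top_P0_Z (by omega) (by omega),
        top_P0_Z (by omega) (by omega), e0, e1, e2]
      have := h1 k (by omega)
      omega
    · rw [top_P0_Z (t := t) (by omega) (by omega), top_P0_Z (t := t) (by omega) (by omega),
        top_P0_Z ht (by omega), top_P0_Z ht (by omega), e1, e2, e3]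
      have := h1 k (by omega)
      omega
  · intro t ht j hj
    rw [top_P0_Z ht (by omega), top_P0_Z ht (by omega)]
    have e : (j + 2) / 2 = j / 2 + 1 := by omega
    rw [e]
    exact h1 _ (by omega)
  · intro e
    refine ⟨fun k hk => ?_, fun k hk => ?_, fun k hk => ?_, fun k hk => ?_⟩
    · rw [top_P0_Z le_rfl (by omega), top_P0_S (by omega)]
    · rw [top_P0_Z le_rfl (by omega), top_P0_S (by omega)]
    · rw [top_P0_Z le_rfl (by omega), top_P0_Z le_rfl (by omega), top_P0_S (by omega), e0, e1]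
      by_cases hk1 : k + 1 < m
      · rw [top_P0_S (by omega), e2]
        have := h1 k hk1
        omega
      · have hk2 : k + 1 = m := by omega
        have := h2 k hk2
        have e4 : (P0 m c δ).S e (2 * k + 2) = if e then 0 else -δ := by
          simp only [Pat.S]
          rw [e2, hk2]
          exact top_P0_s_top e
        rw [e4]
        split_ifs <;> omega
    · rw [top_P0_Z le_rfl (by omega), top_P0_Z le_rfl (by omega), top_P0_S (by omega), top_P0_S (by omega), e1, e2, e3]
      have := h1 k hk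
      omega
  · intro t ht
    rw [top_P0_Z (by omega) (by omega), e1]

/-- all `Mi (P0) i l`, `l ≤ 2 rw i`, vanish (induction with `M_odd`, `M_even_succ`) -/
theorem epsZ_P0 (hm : 1 ≤ m) (i : Fin (m + 1)) : epsZ (P0 m c δ) i = 0 := by
  have hr : rw i + 1 ≤ m := by
    simp only [rw]
    omega
  have hL : ∀ j, j < 2 * rw i → Lc (P0 m c δ) i j = c (j / 2) := fun j hj => top_P0_Z (by omega) hj
  have hZ : ∀ j, j < 2 * rw i + 2 → Zc (P0 m c δ) i j = c (j / 2) := fun j hj => top_P0_Z hr (by omega)
  have hR : ∀ j, j < 2 * rw i + 2 → Rc (P0 m c δ) i j = c (j / 2) := fun j hj => by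
    simp only [Rc]
    split_ifs with h
    · exact top_P0_Z (by omega) (by omega)
    · exact top_P0_S (by omega)
  have key : ∀ l, l ≤ 2 * rw i → Mi (P0 m c δ) i l = 0 := by
    intro l
    induction l with
    | zero =>
      intro _
      simp only [Mi, M]
      rw [hZ 0 (by omega), hR 0 (by omega), sub_self]
    | succ l ih =>
      intro hl
      have h0 := ih (by omega)
      simp only [Mi] at h0
      simp only [Mi, M, T]
      rw [h0, hZ l (by omega), hZ (l + 1) (by omega)]
      split_ifs with h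
      · rw [hL l (by omega), hL (l + 1) (by omega)]
        ring
      · rw [hR l (by omega), hR (l + 1) (by omega)]
        ring
  simp only [epsZ]
  rw [key _ (top_fp_le _ _), neg_zero]

theorem wtP_P0 {b : Fin (m + 1) → ℤ} (hb : IsDominantIntegral (m + 1) b) : wtP m (dl b) (P0 m (cc b) (dl b)) = b := by
  funext k
  simp only [wtP]
  split_ifs with hk
  · have s1 : ∑ j ∈ range (2 * (k : ℕ) + 1), (P0 m (cc b) (dl b)).Z (k + 1) j =
        ∑ j ∈ range (2 * (k : ℕ) + 1), cc b (j / 2) :=
      sum_congr rfl fun j hj => top_P0_Z (by omega) (by have := mem_range.1 hj; omega)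
    have s2 : ∑ j ∈ range (2 * (k : ℕ)), (P0 m (cc b) (dl b)).Z k j = ∑ j ∈ range (2 * (k : ℕ)), cc b (j / 2) :=
      sum_congr rfl fun j hj => top_P0_Z (by omega) (mem_range.1 hj)
    have e0 : 2 * (k : ℕ) / 2 = k := by omega
    rw [s1, s2, sum_range_succ, e0]
    have e1 : cc b k = (b k - dl b) / 2 := by
      simp only [cc]
      rw [dif_pos k.2]
    obtain ⟨x, hx⟩ := hb.1 k (Fin.last m)
    simp only [dl] at e1 ⊢
    omega
  · have e : k = Fin.last m := Fin.ext (by have := k.2; simp only [Fin.val_last]; omega)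
    have s1 : ∑ l ∈ range m, ((P0 m (cc b) (dl b)).s true l - (P0 m (cc b) (dl b)).s false l) = 0 :=
      sum_eq_zero fun l hl => by rw [top_P0_s (mem_range.1 hl), top_P0_s (mem_range.1 hl), sub_self]
    rw [s1, e]
    simp [dl]

theorem cc_dom {b : Fin (m + 1) → ℤ} (hb : IsDominantIntegral (m + 1) b) :
    (∀ k, k + 1 < m → cc b (k + 1) ≤ cc b k) ∧ ∀ k, k + 1 = m → 0 ≤ cc b k ∧ -dl b ≤ cc b k := by
  refine ⟨fun k hk => ?_, fun k hk => ?_⟩
  · have h := hb.2.1 ⟨k, by omega⟩ ⟨k + 1, by omega⟩ (by simp [Fin.le_def]) (by simp only; omega)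
    simp only [cc]
    rw [dif_pos (by omega : k + 1 < m + 1), dif_pos (by omega : k < m + 1)]
    omega
  · have h := hb.2.2 ⟨k, by omega⟩ (Fin.last m) (by simp only; omega) (by simp)
    have h' := abs_le.1 h
    simp only [cc]
    rw [dif_pos (by omega : k < m + 1)]
    simp only [dl]
    omega

theorem top_M_even {L Z R : ℕ → ℤ} (k : ℕ) (h : ∀ l, l < 2 * k → L l = Z l ∧ R l = Z l) :
    M L Z R (2 * k) = Z (2 * k) - R (2 * k) := by
  induction k with
  | zero => rfl
  | succ k ih =>
    have h0 := h (2 * k) (by omega)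
    have h1 := h (2 * k + 1) (by omega)
    have e := ih fun l hl => h l (by omega)
    rw [show 2 * (k + 1) = 2 * k + 2 by ring, M_even_succ, M_odd, e]
    omega

/-- one row of `eq_P0` -/
theorem top_row (hm : 1 ≤ m) (h : IsPat m c δ P) (h0 : ∀ i : Fin (m + 1), epsZ P i ≤ 0) (k : ℕ) :
    k < m → (∀ t, k < t → t ≤ m → P.Z t (2 * k) = c k ∧ P.Z t (2 * k + 1) = c k) ∧ ∀ e, P.s e k = c k := by
  induction k using Nat.strong_induction_on with
  | _ k ih =>
  intro hk
  have hZ : ∀ t l, k ≤ t → t ≤ m → l < 2 * k → P.Z t l = c (l / 2) := fun t l h1 h2 h3 => by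
    have := (ih (l / 2) (by omega) (by omega)).1 t (by omega) h2
    rcases Nat.mod_two_eq_zero_or_one l with h4 | h4
    · rw [← this.1]
      congr 1
      omega
    · rw [← this.2]
      congr 1
      omega
  have hM : ∀ i : Fin (m + 1), k ≤ rw i → Mi P i (2 * k) = Zc P i (2 * k) - Rc P i (2 * k) := fun i hi => by
    have hr := rw_lt hm i
    refine top_M_even k fun l hl => ⟨?_, ?_⟩
    · exact (hZ _ l hi (by omega) hl).trans (hZ _ l (by omega) hr hl).symm
    · refine Eq.trans ?_ (hZ _ l (by omega) hr hl).symm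
      unfold Rc
      split_ifs with h1
      · exact hZ _ l (by omega) (by omega) hl
      · exact (ih (l / 2) (by omega) (by omega)).2 _
  have hE : ∀ i : Fin (m + 1), k ≤ rw i → Zc P i (2 * k) = Rc P i (2 * k) := fun i hi => by
    have h1 := epsZ_le_iff.mp (h0 i) (2 * k) (by omega)
    have h2 := (h.col hm i).2.2.p1 k (by omega)
    rw [hM i hi] at h1
    omega
  have hrw : ∀ (r : ℕ) (hr : r < m), rw (⟨r, by omega⟩ : Fin (m + 1)) = r := fun r hr => by
    simp only [rw]
    omega
  have hev : ∀ t, k < t → t ≤ m → P.Z t (2 * k) = P.Z (k + 1) (2 * k) := fun t h1 h2 => by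
    induction t, h1 using Nat.le_induction with
    | base => rfl
    | succ t ht iht =>
      obtain ⟨r, rfl⟩ : ∃ r, t = r + 1 := ⟨t - 1, by omega⟩
      have e := hrw r (by omega)
      have h3 := hE ⟨r, by omega⟩ (by omega)
      unfold Zc Rc at h3
      rw [e, if_pos (by omega)] at h3
      rw [← iht (by omega), h3]
  have hs : ∀ e, P.s e k = P.Z m (2 * k) := fun e => by
    cases e
    · have e : rw (Fin.last m) + 1 = m := by
        simp only [rw, Fin.val_last]
        omega
      have h3 := hE (Fin.last m) (by omega)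
      unfold Zc Rc at h3
      rw [e, if_neg (by omega)] at h3
      simpa [Pat.S, sn] using h3.symm
    · have e : rw (⟨m - 1, by omega⟩ : Fin (m + 1)) + 1 = m := by
        rw [hrw _ (by omega)]
        omega
      have h3 := hE ⟨m - 1, by omega⟩ (by omega)
      unfold Zc Rc at h3
      rw [e, if_neg (by omega)] at h3
      have h4 : sn (⟨m - 1, by omega⟩ : Fin (m + 1)) = true := by
        simp only [sn, decide_eq_true_eq]
        omega
      rw [h4] at h3
      simpa [Pat.S] using h3.symm
  have hod : ∀ t, k < t → t ≤ m → P.Z t (2 * k + 1) = c k := fun t h1 h2 => by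
    induction t, h1 using Nat.le_induction with
    | base => exact h.bd k hk
    | succ t ht iht =>
      have e := hrw t (by omega)
      have h3 := epsZ_le_iff.mp (h0 ⟨t, by omega⟩) (2 * k + 1) (by omega)
      have h4 := hM ⟨t, by omega⟩ (by omega)
      rw [hE ⟨t, by omega⟩ (by omega), sub_self] at h4
      have h5 := (h.adj t h2).p2 k (by omega)
      unfold Mi at h3 h4
      rw [M_odd, h4] at h3
      unfold Zc Lc at h3
      rw [e, hev (t + 1) (by omega) h2, hev t (by omega) (by omega)] at h3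
      have h6 := iht (by omega)
      omega
  have hv : P.Z m (2 * k) = c k := by
    have h1 := h.sum k hk
    rw [hs, hs, hod m hk le_rfl] at h1
    omega
  exact ⟨fun t h1 h2 => ⟨by rw [hev t h1 h2, ← hev m hk le_rfl, hv], hod t h1 h2⟩, fun e => (hs e).trans hv⟩

/-- Induction on the row `k`: if the rows `< k` are those of `P0` then `Mi P i (2k) = Zc (2k) - Rc (2k) ≥ 0` for every node with
`k ≤ rw i`, so (p1) the entries `Z t (2k)`, `s true k`, `s false k` are all equal, and `Z m (2k+1)` equals them too (`sum`); then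
`Mi P i (2k+1) = Zc (2k+1) - Lc (2k+1) ≥ 0` and (p2), `bd` give `Z t (2k+1) = c k`. -/
theorem eq_P0 (hm : 1 ≤ m) (h : IsPat m c δ P) (h0 : ∀ i : Fin (m + 1), epsZ P i ≤ 0) : P = P0 m c δ := by
  refine Pat.ext (funext fun t => funext fun j => ?_) (funext fun e => funext fun k => ?_)
  · simp only [P0]
    split_ifs with h1
    · have := (top_row hm h h0 (j / 2) (by omega)).1 t (by omega) h1.1
      rcases Nat.mod_two_eq_zero_or_one j with h4 | h4
      · rw [← this.1]
        congr 1
        omega
      · rw [← this.2]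
        congr 1
        omega
    · exact h.junk.Z t j (by omega)
  · simp only [P0]
    by_cases h1 : k < m
    · rw [if_pos h1]
      exact (top_row hm h h0 k h1).2 e
    · rw [if_neg h1]
      by_cases h2 : k = m
      · rw [if_pos h2, h2]
        exact h.top e
      · rw [if_neg h2]
        exact h.junk.s e k (by omega)

end Crest.Agent.R172.P
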